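import Vale.Agent.P258.R2.H390.Defs

/-!
The braid group, the braid of a word, and the explicit family of words.
-/

namespace Vale.Agent.P258.Braid

/-- Artin's relations for the braid group on `m` strands. -/
def braidRels (m : ℕ) : Set (FreeGroup (Fin (m - 1))) :=
  {r | ∃ i j : Fin (m - 1), i.val + 1 = j.val ∧
    r = FreeGroup.of i * FreeGroup.of j * FreeGroup.of i *
      (FreeGroup.of j * FreeGroup.of i * FreeGroup.of j)⁻¹} ∪
  {r | ∃ i j : Fin (m - 1), i.val + 2 ≤ j.val ∧
    r = FreeGroup.of i * FreeGroup.of j * (FreeGroup.of j * FreeGroup.of i)⁻¹}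

/-- The braid group on `m` strands. -/
abbrev BraidGroup (m : ℕ) : Type := PresentedGroup (braidRels m)

/-- The braid of a letter (trivial when the position is out of range). -/
def letter (m : ℕ) (x : ℕ × Bool) : BraidGroup m :=
  if h : x.1 < m - 1 then
    (if x.2 then PresentedGroup.of (⟨x.1, h⟩ : Fin (m - 1))
      else (PresentedGroup.of (⟨x.1, h⟩ : Fin (m - 1)))⁻¹)
  else 1

/-- The braid of a word. -/
def toBraid (m : ℕ) (w : Word) : BraidGroup m := (w.map (letter m)).prod

/-- The power `z` of the crossing of the strands at the positions `i`, `i + 1`. -/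
def pw (i : ℕ) : ℤ → Word
  | Int.ofNat n => List.replicate n (i, true)
  | Int.negSucc n => List.replicate (n + 1) (i, false)

/-- The words `σ₁² σ₃² σ₀^(-2n) σ₂^n σ₄^(1-2n)` on six strands. -/
def fam (n : ℤ) : Word := pw 1 2 ++ (pw 3 2 ++ (pw 0 (-2 * n) ++ (pw 2 n ++ pw 4 (1 - 2 * n))))

/-- The arcs below and above six strands: the bottom ends `0, 1`, `2, 3` and `4, 5`, and the top
ends `0, 5`, `1, 2` and `3, 4` are joined. -/
def caps6 : Caps 6 := ⟨![1, 0, 3, 2, 5, 4], ![5, 2, 1, 4, 3, 0], 0⟩

end Vale.Agent.P258.Braid
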