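import Vale.Agent.P258.R2.H390.Tw
import Vale.Agent.P258.H331.Lemmas

set_option linter.all false

/-!
The enumeration for the explicit knot: the colours of the six bottom ends are
`x, x⁻¹, y, y⁻¹, z, z⁻¹`.
-/

namespace Vale.Agent.P258.Braid

open Vale.Agent.P258.Second (force mulN invN cd cl)

def halfC {α : Type} (e : Bool) (s t : ℕ × ℕ) (k : ℕ × ℕ → ℕ × ℕ → α) : α :=
  match e with
  | true => force (mulN (mulN (invN s.1) t.1) s.1) fun a => force (mulN t.2 s.1) fun b =>
      k (a, b) s
  | false => force (mulN (mulN t.1 s.1) (invN t.1)) fun a => force (mulN s.2 (invN t.1)) fun b =>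
      k t (a, b)

def crossC {α : Type} : ℕ → Bool → List (ℕ × ℕ) → (List (ℕ × ℕ) → α) → α
  | 0, e, s :: t :: l, k => halfC e s t fun s' t' => k (s' :: t' :: l)
  | i + 1, e, s :: l, k => crossC i e l fun l' => k (s :: l')
  | _, _, l, k => k l

def runC {α : Type} : Word → List (ℕ × ℕ) → (List (ℕ × ℕ) → α) → α
  | [], l, k => k l
  | x :: w, l, k => crossC x.1 x.2 l fun l' => runC w l' k

def rawC (s0 s1 s2 s3 s4 s5 : ℕ × ℕ) : ℕ :=
  mulN (mulN (mulN (mulN (mulN s0.2 (invN s5.2)) s4.2) (invN s3.2)) s2.2) (invN s1.2)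

def sqC (x : ℕ) : ℕ := mulN x x

/-- The conditions at the top for the slope `-2`. -/
def endC (x : ℕ) (l : List (ℕ × ℕ)) : Bool :=
  match l with
  | [s0, s1, s2, s3, s4, s5] =>
      !(Nat.beq (mulN s0.1 s5.1) 513 && (Nat.beq (mulN s3.1 s4.1) 513 &&
        Nat.beq (rawC s0 s1 s2 s3 s4 s5) (sqC (sqC (sqC (sqC x))))))
  | _ => false

def leafC (x y z : ℕ) : Bool :=
  runC (fam 5) [(x, 513), (invN x, 513), (y, 513), (invN y, 513), (z, 513), (invN z, 513)]
    (endC x)

def innerC (t x y yi l2 l2i Ai : ℕ) : Bool :=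
  (cl t).all fun z => force (mulN z yi) fun q => force (mulN (mulN (invN q) yi) q) fun l3 =>
    force (mulN l3 l2) fun r => force (mulN r r) fun r2 =>
      !(Nat.beq (mulN (mulN l2i r) r2) (mulN r2 Ai)) || leafC x y z

def outerC (t : ℕ) : Bool :=
  force (cd 0 1 1 t) fun x => force (invN x) fun xi =>
    (cl t).all fun y => force (invN y) fun yi =>
      force (mulN y xi) fun q => force (invN q) fun qi =>
      force (mulN (mulN qi xi) q) fun a1 => force (mulN (mulN qi y) q) fun l2 =>
      force (invN l2) fun l2i =>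
      force (mulN a1 x) fun p => force (mulN (sqC (sqC p)) p) fun p5 =>
      force (mulN (mulN p5 (invN a1)) (invN p5)) fun Ai => innerC t x y yi l2 l2i Ai

end Vale.Agent.P258.Braid
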