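import Vale.Agent.P258.R2.H390.Chk

set_option linter.all false

namespace Vale.Agent.P258.Braid

theorem outer_all : ∀ t : Fin 8, t.val ≠ 0 → outerC t.val = true := by decide +kernel

end Vale.Agent.P258.Braid
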