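import Vale.Agent.P258.R2.H390.Nat

set_option linter.all false

/-!
Equivalent words: the closures have the same numbers of homomorphisms; there are finitely many
classes; the braid relations hold.
-/

namespace Vale.Agent.P258.Braid

open Function

section

variable {m : ℕ} {H : Type} [Group H]

theorem start_length (c : Fin m → H) : (start c).length = m := by simp [start]

theorem cross_length (e : Bool) : ∀ (i : ℕ) (l : List (St m H)),
    (cross i e l).length = l.length
  | 0, [] => rfl
  | 0, [_] => rfl
  | 0, s :: t :: l => by simp [cross]
  | i + 1, [] => rfl
  | i + 1, s :: l => by simp [cross, cross_length e i l]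

theorem run_length (w : Word) : ∀ l : List (St m H), (run w l).length = l.length := by
  induction w with
  | nil => intro l; rfl
  | cons x w ih =>
    intro l
    change (run w (cross x.1 x.2 l)).length = _
    rw [ih, cross_length]

theorem run_append (u v : Word) (l : List (St m H)) : run (u ++ v) l = run v (run u l) := by
  simp [run, List.foldl_append]

theorem Same.append {u u' v v' : Word} (h : Same m H u u') (h' : Same m H v v') :
    Same m H (u ++ v) (u' ++ v') := by
  intro l hl
  rw [run_append, run_append, h l hl]
  exact h' _ (by rw [run_length, hl])

theorem Same.refl' (w : Word) : Same m H w w := fun _ _ => rfl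
theorem Same.symm' {w w' : Word} (h : Same m H w w') : Same m H w' w := fun l hl => (h l hl).symm
theorem Same.trans' {u v w : Word} (h : Same m H u v) (h' : Same m H v w) : Same m H u w :=
  fun l hl => (h l hl).trans (h' l hl)

theorem cross_inv (e : Bool) : ∀ (i : ℕ) (l : List (St m H)), cross i (!e) (cross i e l) = l
  | 0, [] => rfl
  | 0, [_] => rfl
  | 0, s :: t :: l => by
    cases e
    · simp only [cross, half, Bool.not_false]
      refine congrArg₂ List.cons ?_ (congrArg₂ List.cons ?_ rfl)
      all_goals first
        | rfl
        | (refine St.ext rfl ?_ ?_ <;> simp only <;> group)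
    · simp only [cross, half, Bool.not_true]
      refine congrArg₂ List.cons ?_ (congrArg₂ List.cons ?_ rfl)
      all_goals first
        | rfl
        | (refine St.ext rfl ?_ ?_ <;> simp only <;> group)
  | i + 1, [] => rfl
  | i + 1, s :: l => by simp [cross, cross_inv e i l]

theorem cross_comm (e f : Bool) : ∀ (i j : ℕ) (l : List (St m H)), i + 2 ≤ j →
    cross j f (cross i e l) = cross i e (cross j f l)
  | 0, j + 2, [], _ => rfl
  | 0, j + 2, [_], _ => by simp [cross]
  | 0, j + 2, s :: t :: l, _ => by simp [cross]
  | i + 1, j + 1, [], _ => rfl
  | i + 1, j + 1, s :: l, h => by simp [cross, cross_comm e f i j l (by omega)]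
  | 0, 1, _, h => by omega
  | 0, 0, _, h => by omega
  | i + 1, 0, _, h => by omega

theorem cross_braid (e : Bool) : ∀ (i : ℕ) (l : List (St m H)), i + 3 ≤ l.length →
    cross i e (cross (i + 1) e (cross i e l)) = cross (i + 1) e (cross i e (cross (i + 1) e l))
  | 0, s :: t :: r :: l, _ => by
    cases e
    all_goals
      simp only [cross, half]
      refine congrArg₂ List.cons ?_ (congrArg₂ List.cons ?_ (congrArg₂ List.cons ?_ rfl))
      all_goals first
        | rfl
        | (refine St.ext rfl ?_ ?_ <;> simp only <;> group)
  | i + 1, s :: l, h => by
    have := cross_braid e i l (by simpa using h)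
    simp only [cross]
    rw [this]

end

/-- The inverse word. -/
def inverse (w : Word) : Word := (w.map fun x => (x.1, !x.2)).reverse

theorem run_inverse {m : ℕ} {H : Type} [Group H] (w : Word) : ∀ l : List (St m H),
    run (inverse w) (run w l) = l := by
  induction w with
  | nil => intro l; rfl
  | cons x w ih =>
    intro l
    have h : inverse (x :: w) = inverse w ++ [(x.1, !x.2)] := by simp [inverse]
    rw [h, run_append]
    change cross x.1 (!x.2) (run (inverse w) (run w (cross x.1 x.2 l))) = l
    rw [ih, cross_inv]

theorem inverse_inverse (w : Word) : inverse (inverse w) = w := by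
  simp [inverse, List.map_reverse, Function.comp_def]

end Vale.Agent.P258.Braid
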