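import Vale.Agent.P258.R2.H390.Cls

set_option linter.all false

/-!
The number of homomorphisms depends only on the class of the word and on the slope modulo `N`.
-/

namespace Vale.Agent.P258.Braid

open Function

variable {m : ℕ} {G : Type} [Group G] {N : ℕ}

theorem zpow_congr' (hN : ∀ g : G, g ^ N = 1) (g : G) {a b : ℤ} (h : (N : ℤ) ∣ a - b) :
    g ^ a = g ^ b := by
  obtain ⟨k, hk⟩ := h
  have e : a = b + N * k := by omega
  rw [e, zpow_add, zpow_mul, zpow_natCast, hN, one_zpow, mul_one]

theorem ups_congr (K : Caps m) {w w' : Word} (h : Same m G w w') : K.ups w = K.ups w' := by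
  unfold Caps.ups
  refine List.map_congr_left fun i _ => ?_
  rw [← walk_unit K w (fun _ => (1 : G)) i, ← walk_unit K w' (fun _ => (1 : G)) i,
    h _ (start_length _)]

theorem expo_congr (K : Caps m) {w w' : Word} (h : Equiv m G N w w') :
    (N : ℤ) ∣ K.expo w - K.expo w' := by
  have hori : K.ori w = K.ori w' := by
    funext i
    unfold Caps.ori
    rw [ups_congr K h.1]
  let φ : Multiplicative ℤ →* Multiplicative (ZMod N) :=
    AddMonoidHom.toMultiplicative (Int.castAddHom (ZMod N))
  have h1 : ∀ v : Word, φ (K.rawLon v fun i => Multiplicative.ofAdd (K.ori v i)) =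
      K.rawLon v fun i => φ (Multiplicative.ofAdd (K.ori v i)) := fun v =>
    (rawLon_map K v φ _).symm
  have h2 : (K.rawLon w fun i => φ (Multiplicative.ofAdd (K.ori w i))) =
      K.rawLon w' fun i => φ (Multiplicative.ofAdd (K.ori w' i)) := by
    rw [hori]
    unfold Caps.rawLon
    rw [h.2 _ (start_length _)]
  have h3 : ((K.expo w : ℤ) : ZMod N) = ((K.expo w' : ℤ) : ZMod N) := by
    have := (h1 w).trans (h2.trans (h1 w').symm)
    exact congrArg Multiplicative.toAdd this
  have h4 := (ZMod.intCast_eq_intCast_iff_dvd_sub _ _ _).1 h3.symm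
  exact h4

theorem lon_congr (K : Caps m) (hN : ∀ g : G, g ^ N = 1) {w w' : Word}
    (h : Equiv m G N w w') (c : Fin m → G) : K.lon w c = K.lon w' c := by
  unfold Caps.lon
  have h1 : K.rawLon w c = K.rawLon w' c := by
    unfold Caps.rawLon
    rw [h.1 _ (start_length _)]
  rw [h1, zpow_congr' hN _ (a := -(K.expo w)) (b := -(K.expo w')) (by
    have := expo_congr K h
    obtain ⟨k, hk⟩ := this
    exact ⟨-k, by rw [mul_neg, ← hk]; ring⟩)]

theorem good_congr (K : Caps m) (hN : ∀ g : G, g ^ N = 1) {w w' : Word}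
    (h : Equiv m G N w w') {p q p' q' : ℤ} (hp : (N : ℤ) ∣ p - p') (hq : (N : ℤ) ∣ q - q')
    (c : Fin m → G) : Good K w p q c ↔ Good K w' p' q' c := by
  have e1 : run w (start c) = run w' (start c) := h.1 _ (start_length _)
  have e2 := lon_congr K hN h c
  have e3 := zpow_congr' hN (c K.base) hp
  have e4 := zpow_congr' hN (K.lon w' c) hq
  constructor
  · rintro ⟨g1, g2, g3⟩
    refine ⟨g1, ?_, ?_⟩
    · rw [← e1]; exact g2
    · rw [← e3, ← e4, ← e2]; exact g3
  · rintro ⟨g1, g2, g3⟩
    refine ⟨g1, ?_, ?_⟩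
    · rw [e1]; exact g2
    · rw [e3, e2, e4]; exact g3

theorem homCount_congr (K : Caps m) (hN : ∀ g : G, g ^ N = 1) {w w' : Word}
    (h : Equiv m G N w w') {p q p' q' : ℤ} (hp : (N : ℤ) ∣ p - p') (hq : (N : ℤ) ∣ q - q') :
    K.homCount G w p q = K.homCount G w' p' q' := by
  rw [homCount_eq, homCount_eq]
  exact Nat.card_congr (Equiv.subtypeEquivRight fun c => good_congr K hN h hp hq c)

/-- Slopes that are separated for one word are separated for all equivalent words. -/
theorem not_iso (K : Caps m) (hN : ∀ g : G, g ^ N = 1) {w w' : Word}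
    (h : Equiv m G N w w') {p q p' q' r s r' s' : ℤ}
    (hp : (N : ℤ) ∣ p - p') (hq : (N : ℤ) ∣ q - q')
    (hr : (N : ℤ) ∣ r - r') (hs : (N : ℤ) ∣ s - s')
    (hne : K.homCount G w' p' q' ≠ K.homCount G w' r' s') :
    IsEmpty (PresentedGroup (K.relators w p q) ≃* PresentedGroup (K.relators w r s)) := by
  apply isEmpty_of_card (G := G)
  have h1 := homCount_congr K hN h hp hq
  have h2 := homCount_congr K hN h hr hs
  unfold Caps.homCount at h1 h2 hne
  rw [h1, h2]
  exact hne

end Vale.Agent.P258.Braid
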