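import Vale.Agent.P258.MathlibUsed

/-!
Closures of braid words by caps, and the groups of the surgeries on the knots obtained in this
way.
-/

namespace Vale.Agent.P258.Braid

/-- The state of a strand of a braid with `m` strands at some level: the position `lab` of its
bottom end, the colour `col` of the strand, read upwards, in a group `H`, and the product `tr` of
the colours (read upwards, with the signs of the crossings) of the strands under which it has
passed since the bottom. -/
@[ext] structure St (m : ℕ) (H : Type*) where
  lab : Fin m
  col : H
  tr : H

section

variable {m : ℕ} {H : Type*} [Group H]

/-- The crossing of two adjacent strands, `s` on the left and `t` on the right.  For `e = true`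
the left strand passes over the right one, for `e = false` the right strand passes over the left
one.  The result is the pair (strand now on the left, strand now on the right). -/
def half (e : Bool) (s t : St m H) : St m H × St m H :=
  match e with
  | true => (⟨t.lab, s.col⁻¹ * t.col * s.col, t.tr * s.col⟩, s)
  | false => (t, ⟨s.lab, t.col * s.col * t.col⁻¹, s.tr * t.col⁻¹⟩)

/-- The crossing of the strands at the positions `i`, `i + 1`. -/
def cross : ℕ → Bool → List (St m H) → List (St m H)
  | 0, e, s :: t :: l => (half e s t).1 :: (half e s t).2 :: l
  | i + 1, e, s :: l => s :: cross i e l
  | _, _, l => l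

end

/-- Braid words: `(i, true)` and `(i, false)` are the two crossings of the strands at the
positions `i`, `i + 1`, from the bottom to the top. -/
abbrev Word := List (ℕ × Bool)

section

variable {m : ℕ} {H : Type*} [Group H]

/-- The action of a word on a row of strands. -/
def run (w : Word) (l : List (St m H)) : List (St m H) := w.foldl (fun l x => cross x.1 x.2 l) l

/-- The strands at the bottom with the colours `c`. -/
def start (c : Fin m → H) : List (St m H) := List.ofFn fun i => ⟨i, c i, 1⟩

/-- The strand at the position `p`. -/
def pick (l : List (St m H)) (p : Fin m) : St m H := l.getD p.val ⟨p, 1, 1⟩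

end

/-- Arcs below and above a braid with `m` strands: `bot` and `top` match the bottom ends and the
top ends of the strands; `base` is a bottom end. -/
structure Caps (m : ℕ) where
  bot : Fin m → Fin m
  top : Fin m → Fin m
  base : Fin m

namespace Caps

variable {m : ℕ} (K : Caps m) {H : Type*} [Group H]

/-- One pass up a strand, starting at its bottom end `x.2`, over a cap, and down a strand; the
products of the over-colours are accumulated in `x.1`, and the new position is the bottom end
matched with the one reached. -/
def pass (l : List (St m H)) (x : H × Fin m) : H × Fin m :=
  match (List.finRange m).find? (fun p => decide ((pick l p).lab = x.2)) with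
  | none => x
  | some p => (x.1 * (pick l p).tr * (pick l (K.top p)).tr⁻¹, K.bot (pick l (K.top p)).lab)

/-- The bottom ends at which the knot goes up, when one starts upwards at `K.base`. -/
def ups (w : Word) : List (Fin m) :=
  (List.range (m / 2)).map fun i =>
    ((K.pass (run w (start fun _ => (1 : Multiplicative ℤ))))^[i] (1, K.base)).2

/-- The closure of `w` is a knot. -/
def IsKnot (w : Word) : Prop :=
  (K.ups w).Nodup ∧
    ((K.pass (run w (start fun _ => (1 : Multiplicative ℤ))))^[m / 2] (1, K.base)).2 = K.base

/-- The product of the over-colours along the knot, which starts upwards at `K.base`. -/
def rawLon (w : Word) (c : Fin m → H) : H := ((K.pass (run w (start c)))^[m / 2] (1, K.base)).1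

/-- The orientation of the strands. -/
def ori (w : Word) (i : Fin m) : ℤ := if i ∈ K.ups w then 1 else -1

/-- The exponent sum of `rawLon`, when all meridians of the oriented knot count as one. -/
def expo (w : Word) : ℤ :=
  Multiplicative.toAdd (K.rawLon w fun i => Multiplicative.ofAdd (K.ori w i))

/-- The preferred longitude, in terms of the colours of the bottom ends. -/
def lon (w : Word) (c : Fin m → H) : H := K.rawLon w c * c K.base ^ (-(K.expo w))

/-- Relators on the colours of the bottom ends for the fundamental group of the surgery of slope
`p / q` on the closure of `w`: the two ends of an arc below, and of an arc above, have inverse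
colours (strands are read upwards), and `μ ^ p * λ ^ q`. -/
def relators (w : Word) (p q : ℤ) : Set (FreeGroup (Fin m)) :=
  Set.range (fun i => FreeGroup.of i * FreeGroup.of (K.bot i)) ∪
  Set.range (fun i => (pick (run w (start FreeGroup.of)) i).col *
    (pick (run w (start FreeGroup.of)) (K.top i)).col) ∪
  {FreeGroup.of K.base ^ p * K.lon w FreeGroup.of ^ q}

/-- The number of homomorphisms of the fundamental group of the surgery of slope `p / q` on the
closure of `w` to `G`. -/
noncomputable def homCount (G : Type) [Group G] (w : Word) (p q : ℤ) : ℕ :=
  Nat.card (PresentedGroup (K.relators w p q) →* G)

end Caps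

/-- Two words act in the same way on all rows of `m` strands coloured by `H`. -/
def Same (m : ℕ) (H : Type) [Group H] (w w' : Word) : Prop :=
  ∀ l : List (St m H), l.length = m → run w l = run w' l

/-- Two words act in the same way on all rows of `m` strands coloured by `G` and by the cyclic
group of order `N`. -/
def Equiv (m : ℕ) (G : Type) [Group G] (N : ℕ) (w w' : Word) : Prop :=
  Same m G w w' ∧ Same m (Multiplicative (ZMod N)) w w'

end Vale.Agent.P258.Braid
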