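import Vale.Agent.P258.R2.H390.Snd
import Vale.Agent.P258.R2.H390.Chk2

set_option linter.all false

/-!
The explicit knot: the slopes `2` and `-2` are separated by `SL(2, 8)`.
-/

namespace Vale.Agent.P258.Braid

open Function
open Vale.Agent.P258.Second (force force_eq mulN invN cd cl code code_mul code_inv code_one
  code_inj tr tr_lt tr_conj sq_of_tr mem_cl comp code_comp exists_w F8)

theorem outer_sound (t : F8) (X Y Z q a1 l2 p p5 Ai q' l3 r r2 : S8) (hX : X = comp t)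
    (hY : code Y ∈ cl t.val) (hZ : code Z ∈ cl t.val)
    (hq : q = Y * X⁻¹) (ha : a1 = q⁻¹ * X⁻¹ * q) (hl2 : l2 = q⁻¹ * Y * q) (hp : p = a1 * X)
    (hp5 : p5 = p * p * (p * p) * p) (hAi : Ai = p5 * a1⁻¹ * p5⁻¹) (hq' : q' = Z * Y⁻¹)
    (hl3 : l3 = q'⁻¹ * Y⁻¹ * q') (hr : r = l3 * l2) (hr2 : r2 = r * r)
    (heq : l2⁻¹ * r * r2 = r2 * Ai) (h : outerC t.val = true) :
    leafC (code X) (code Y) (code Z) = true := by
  have eX : cd 0 1 1 t.val = code X := by rw [hX, code_comp]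
  have e1 : invN (code X) = code X⁻¹ := (code_inv _).symm
  have e2 : invN (code Y) = code Y⁻¹ := (code_inv _).symm
  have e3 : mulN (code Y) (code X⁻¹) = code q := by rw [← code_mul, hq]
  have e4 : invN (code q) = code q⁻¹ := (code_inv _).symm
  have e5 : mulN (mulN (code q⁻¹) (code X⁻¹)) (code q) = code a1 := by
    rw [← code_mul, ← code_mul, ha]
  have e6 : mulN (mulN (code q⁻¹) (code Y)) (code q) = code l2 := by
    rw [← code_mul, ← code_mul, hl2]
  have e7 : invN (code l2) = code l2⁻¹ := (code_inv _).symm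
  have e8 : mulN (code a1) (code X) = code p := by rw [← code_mul, hp]
  have e9 : mulN (sqC (sqC (code p))) (code p) = code p5 := by
    unfold sqC
    rw [← code_mul, ← code_mul, ← code_mul, hp5]
  have e10 : mulN (mulN (code p5) (invN (code a1))) (invN (code p5)) = code Ai := by
    rw [← code_inv, ← code_inv, ← code_mul, ← code_mul, hAi]
  have e11 : mulN (code Z) (code Y⁻¹) = code q' := by rw [← code_mul, hq']
  have e12 : mulN (mulN (invN (code q')) (code Y⁻¹)) (code q') = code l3 := by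
    rw [← code_inv, ← code_mul, ← code_mul, hl3]
  have e13 : mulN (code l3) (code l2) = code r := by rw [← code_mul, hr]
  have e14 : mulN (code r) (code r) = code r2 := by rw [← code_mul, hr2]
  have e15 : mulN (mulN (code l2⁻¹) (code r)) (code r2) = mulN (code r2) (code Ai) := by
    rw [← code_mul, ← code_mul, ← code_mul, heq]
  unfold outerC at h
  rw [force_eq, force_eq, List.all_eq_true] at h
  have h1 := h _ hY
  rw [force_eq, force_eq, force_eq, force_eq, force_eq, force_eq, force_eq, force_eq,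
    force_eq] at h1
  simp only [eX, e1, e2, e3, e4, e5, e6, e7, e8, e9, e10] at h1
  unfold innerC at h1
  rw [List.all_eq_true] at h1
  have h2 := h1 _ hZ
  rw [force_eq, force_eq, force_eq, force_eq] at h2
  simp only [e11, e12, e13, e14, e15] at h2
  have h3 : Nat.beq (mulN (code r2) (code Ai)) (mulN (code r2) (code Ai)) = true :=
    Nat.beq_refl _
  rw [h3] at h2
  simpa using h2

section

variable {H : Type} [Group H]

theorem start6 (c : Fin 6 → H) : start c =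
    [⟨0, c 0, 1⟩, ⟨1, c 1, 1⟩, ⟨2, c 2, 1⟩, ⟨3, c 3, 1⟩, ⟨4, c 4, 1⟩, ⟨5, c 5, 1⟩] := rfl

theorem list6 {α : Type*} (l : List α) (h : l.length = 6) :
    ∃ a b c d e f, l = [a, b, c, d, e, f] := by
  match l, h with
  | [a, b, c, d, e, f], _ => exact ⟨a, b, c, d, e, f, rfl⟩

theorem lab_run (w : Word) (c : Fin 6 → H) : (run w (start c)).map St.lab =
    (run w (start fun _ : Fin 6 => (1 : Multiplicative ℤ))).map St.lab := by
  have h := run_map (m := 6) (1 : H →* Multiplicative ℤ) w (start c)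
  rw [start_map] at h
  simp only [MonoidHom.one_apply] at h
  rw [h, List.map_map]
  rfl

theorem lab5 : (run (fam 5) (start fun _ : Fin 6 => (1 : Multiplicative ℤ))).map St.lab =
    [0, 1, 3, 2, 5, 4] := by decide +kernel

theorem pass0 (a t0 t1 t2 t3 t4 t5 c0 c1 c2 c3 c4 c5 : H) :
    caps6.pass [⟨0, c0, t0⟩, ⟨1, c1, t1⟩, ⟨3, c2, t2⟩, ⟨2, c3, t3⟩, ⟨5, c4, t4⟩, ⟨4, c5, t5⟩]
      (a, 0) = (a * t0 * t5⁻¹, 5) := rfl

theorem pass5 (a t0 t1 t2 t3 t4 t5 c0 c1 c2 c3 c4 c5 : H) :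
    caps6.pass [⟨0, c0, t0⟩, ⟨1, c1, t1⟩, ⟨3, c2, t2⟩, ⟨2, c3, t3⟩, ⟨5, c4, t4⟩, ⟨4, c5, t5⟩]
      (a, 5) = (a * t4 * t3⁻¹, 3) := rfl

theorem pass3 (a t0 t1 t2 t3 t4 t5 c0 c1 c2 c3 c4 c5 : H) :
    caps6.pass [⟨0, c0, t0⟩, ⟨1, c1, t1⟩, ⟨3, c2, t2⟩, ⟨2, c3, t3⟩, ⟨5, c4, t4⟩, ⟨4, c5, t5⟩]
      (a, 3) = (a * t2 * t1⁻¹, 0) := rfl

theorem raw5 (w : Word) (c : Fin 6 → H) (t0 t1 t2 t3 t4 t5 c0 c1 c2 c3 c4 c5 : H)
    (h : run w (start c) =
      [⟨0, c0, t0⟩, ⟨1, c1, t1⟩, ⟨3, c2, t2⟩, ⟨2, c3, t3⟩, ⟨5, c4, t4⟩, ⟨4, c5, t5⟩]) :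
    caps6.rawLon w c = t0 * t5⁻¹ * t4 * t3⁻¹ * t2 * t1⁻¹ := by
  unfold Caps.rawLon
  rw [h]
  generalize hL : ([⟨0, c0, t0⟩, ⟨1, c1, t1⟩, ⟨3, c2, t2⟩, ⟨2, c3, t3⟩, ⟨5, c4, t4⟩,
    ⟨4, c5, t5⟩] : List (St 6 H)) = L
  have h3 : (caps6.pass L)^[6 / 2] ((1 : H), caps6.base) =
      caps6.pass L (caps6.pass L (caps6.pass L ((1 : H), (0 : Fin 6)))) := rfl
  rw [h3, ← hL, pass0, pass5, pass3, one_mul]

end

theorem expo5 : caps6.expo (fam 5) = 14 := by decide +kernel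

theorem knot5 : caps6.IsKnot (fam 5) := by
  unfold Caps.IsKnot
  decide +kernel

section

variable {m : ℕ} {H : Type} [Group H]

theorem hz_even (k : ℤ) (s t : St m H) :
    (hPerm ^ (2 * k)) (s, t) = (tw (t.col * s.col) k s, tw (t.col * s.col) k t) := by
  rw [zpow_mul]
  exact hPerm_full k s t

theorem hz_odd (k : ℤ) (s t : St m H) :
    (hPerm ^ (2 * k + 1)) (s, t) =
      half true (tw (t.col * s.col) k s) (tw (t.col * s.col) k t) := by
  rw [add_comm, zpow_add, zpow_one, Equiv.Perm.mul_apply, hz_even, hPerm_apply]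

theorem run5 (a b c d e f : St m H) : ∃ s0 s4 s5 : St m H,
    run (fam 5) [a, b, c, d, e, f] =
      [s0, tw ((tw (c.col * b.col) 1 b).col * a.col) (-5) (tw (c.col * b.col) 1 b),
        (half true
          (tw ((tw (e.col * d.col) 1 d).col * (tw (c.col * b.col) 1 c).col) 2
            (tw (c.col * b.col) 1 c))
          (tw ((tw (e.col * d.col) 1 d).col * (tw (c.col * b.col) 1 c).col) 2
            (tw (e.col * d.col) 1 d))).1,
        (half true
          (tw ((tw (e.col * d.col) 1 d).col * (tw (c.col * b.col) 1 c).col) 2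
            (tw (c.col * b.col) 1 c))
          (tw ((tw (e.col * d.col) 1 d).col * (tw (c.col * b.col) 1 c).col) 2
            (tw (e.col * d.col) 1 d))).2, s4, s5] := by
  have h2 : (hPerm : Equiv.Perm (St m H × St m H)) ^ (2 : ℤ) = hPerm ^ (2 * 1 : ℤ) := by norm_num
  have h10 : (hPerm : Equiv.Perm (St m H × St m H)) ^ (-2 * 5 : ℤ) = hPerm ^ (2 * (-5) : ℤ) := by
    norm_num
  have h5 : (hPerm : Equiv.Perm (St m H × St m H)) ^ (5 : ℤ) = hPerm ^ (2 * 2 + 1 : ℤ) := by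
    norm_num
  rw [run_fam, h2, h10, h5]
  simp only [actAt, hz_even, hz_odd]
  exact ⟨_, _, _, rfl⟩

end

end Vale.Agent.P258.Braid
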