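import Vale.Agent.P258.R2.H390.Ex

set_option linter.all false

/-!
The numbers of homomorphisms to `SL(2, 8)` of the groups of the surgeries of slopes `2` and `-2`
on the explicit knot are different.
-/

namespace Vale.Agent.P258.Braid

open Function
open Vale.Agent.P258.Second (force force_eq mulN invN cd cl code code_mul code_inv code_one
  code_inj tr tr_lt tr_conj sq_of_tr mem_cl comp code_comp exists_w F8 det_eq fmN)

theorem Good.map {m : ℕ} {H H' : Type*} [Group H] [Group H'] {K : Caps m} {w : Word} {p q : ℤ}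
    {c : Fin m → H} (h : Good K w p q c) (φ : H →* H') : Good K w p q fun i => φ (c i) := by
  refine ⟨fun i => ?_, fun i => ?_, ?_⟩
  · rw [← map_mul, h.bot, map_one]
  · rw [col_map, col_map, ← map_mul, h.top, map_one]
  · rw [lon_map, ← map_zpow, ← map_zpow, ← map_mul, h.slope, map_one]

section

variable {H : Type} [Group H]

theorem raw5' (w : Word) (c : Fin 6 → H) (s0 s1 s2 s3 s4 s5 : St 6 H)
    (h : run w (start c) = [s0, s1, s2, s3, s4, s5])
    (hl : (run w (start c)).map St.lab = [0, 1, 3, 2, 5, 4]) :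
    caps6.rawLon w c = s0.tr * s5.tr⁻¹ * s4.tr * s3.tr⁻¹ * s2.tr * s1.tr⁻¹ := by
  rw [h] at hl
  obtain ⟨l0, c0, t0⟩ := s0
  obtain ⟨l1, c1, t1⟩ := s1
  obtain ⟨l2, c2, t2⟩ := s2
  obtain ⟨l3, c3, t3⟩ := s3
  obtain ⟨l4, c4, t4⟩ := s4
  obtain ⟨l5, c5, t5⟩ := s5
  simp only [List.map_cons, List.map_nil, List.cons.injEq, and_true] at hl
  obtain ⟨rfl, rfl, rfl, rfl, rfl, rfl⟩ := hl
  exact raw5 w c _ _ _ _ _ _ _ _ _ _ _ _ h

theorem raw_iff (c : Fin 6 → H) (k : ℤ) : c 0 ^ k * caps6.lon (fam 5) c ^ (1 : ℤ) = 1 ↔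
    caps6.rawLon (fam 5) c = c 0 ^ (14 - k) := by
  unfold Caps.lon
  rw [expo5]
  change c 0 ^ k * (caps6.rawLon (fam 5) c * c 0 ^ (-14 : ℤ)) ^ (1 : ℤ) = 1 ↔ _
  rw [zpow_one]
  constructor
  · intro h
    have h2 : caps6.rawLon (fam 5) c = (c 0 ^ k)⁻¹ * (c 0 ^ k * (caps6.rawLon (fam 5) c *
        c 0 ^ (-14 : ℤ))) * c 0 ^ (14 : ℤ) := by group
    rw [h2, h]
    group
  · intro h
    rw [h]
    group

theorem step_eq (a1 l2 l3 p r : H) (hr : r = l3 * l2)
    (h : p ^ (5 : ℤ) * a1 * p ^ (-5 : ℤ) * ((r ^ (-2 : ℤ) * l2 * r ^ (2 : ℤ))⁻¹ *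
      (r ^ (-2 : ℤ) * l3 * r ^ (2 : ℤ)) * (r ^ (-2 : ℤ) * l2 * r ^ (2 : ℤ))) = 1) :
    l2⁻¹ * r * (r * r) = r * r * (p * p * (p * p) * p * a1⁻¹ * (p * p * (p * p) * p)⁻¹) := by
  have hR2 : r ^ (2 : ℤ) = r * r := zpow_two r
  have hRm : r ^ (-2 : ℤ) = (r * r)⁻¹ := by rw [zpow_neg, hR2]
  have hP5 : p ^ (5 : ℤ) = p * p * (p * p) * p := by
    have h5 : (5 : ℤ) = ((5 : ℕ) : ℤ) := rfl
    rw [h5, zpow_natCast]
    simp only [pow_succ, pow_zero, one_mul, mul_assoc]
  have hPm : p ^ (-5 : ℤ) = (p * p * (p * p) * p)⁻¹ := by rw [zpow_neg, hP5]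
  rw [hR2, hRm, hP5, hPm] at h
  have e : l2⁻¹ * r * (r * r) = l2⁻¹ * (l3 * l2) * (r * r) := by rw [← hr]
  rw [e]
  clear e hR2 hRm hP5 hPm hr
  generalize r * r = R at *
  generalize p * p * (p * p) * p = P at *
  have h1 : l2⁻¹ * (l3 * l2) * R = R * ((R⁻¹ * l2 * R)⁻¹ * (R⁻¹ * l3 * R) * (R⁻¹ * l2 * R)) := by
    group
  have h2 : R * (P * a1⁻¹ * P⁻¹) = R * (P * a1 * P⁻¹)⁻¹ := by group
  rw [h1, h2, eq_inv_of_mul_eq_one_right h]

theorem run5' (a b c d e f : St 6 H) : ∃ s0 s1 s2 s3 s4 s5 : St 6 H,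
    run (fam 5) [a, b, c, d, e, f] = [s0, s1, s2, s3, s4, s5] ∧
    s1.col = (tw ((tw (c.col * b.col) 1 b).col * a.col) (-5) (tw (c.col * b.col) 1 b)).col ∧
    s2.col = ((half true
          (tw ((tw (e.col * d.col) 1 d).col * (tw (c.col * b.col) 1 c).col) 2
            (tw (c.col * b.col) 1 c))
          (tw ((tw (e.col * d.col) 1 d).col * (tw (c.col * b.col) 1 c).col) 2
            (tw (e.col * d.col) 1 d))).1).col := by
  obtain ⟨s0, s4, s5, h⟩ := run5 a b c d e f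
  exact ⟨s0, _, _, _, s4, s5, h, rfl, rfl⟩

end

theorem key (c : Fin 6 → S8) (h : Good caps6 (fam 5) (-2) 1 c) : c 0 * c 0 = 1 := by
  by_contra hne
  have ht0 : tr (c 0) ≠ 0 := fun h0 => hne (sq_of_tr h0)
  obtain ⟨W, hW, eW⟩ := exists_w ht0
  let φ : S8 →* S8 := (MulAut.conj W).toMonoidHom
  have hφ : ∀ g, φ g = W * g * W⁻¹ := fun g => by simp [φ]
  obtain ⟨v, hvd⟩ : ∃ v : Fin 6 → S8, v = fun i => φ (c i) := ⟨_, rfl⟩
  have hv : Good caps6 (fam 5) (-2) 1 v := by rw [hvd]; exact h.map φ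
  let t : F8 := ⟨tr (c 0), tr_lt _⟩
  have hv0 : v 0 = comp t := by
    rw [hvd]
    simp only
    rw [hφ, eW, mul_assoc, mul_inv_cancel, mul_one]
  have htv0 : tr (v 0) = t.val := by
    rw [hvd]
    simp only
    rw [hφ]
    have := tr_conj (c 0) W⁻¹
    rwa [inv_inv] at this
  have htne : t.val ≠ 0 := ht0
  have hv1 : v 1 = (v 0)⁻¹ := eq_inv_of_mul_eq_one_right (hv.bot 0)
  have hv3 : v 3 = (v 2)⁻¹ := eq_inv_of_mul_eq_one_right (hv.bot 2)
  have hv5 : v 5 = (v 4)⁻¹ := eq_inv_of_mul_eq_one_right (hv.bot 4)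
  obtain ⟨s0, s1, s2, s3, s4, s5, hr, c1, c2⟩ := run5' (H := S8) ⟨0, v 0, 1⟩ ⟨1, v 1, 1⟩
    ⟨2, v 2, 1⟩ ⟨3, v 3, 1⟩ ⟨4, v 4, 1⟩ ⟨5, v 5, 1⟩
  rw [← start6] at hr
  simp only [tw, half, zpow_neg_one, zpow_one, neg_neg] at c1 c2
  have hlab : (run (fam 5) (start v)).map St.lab = [0, 1, 3, 2, 5, 4] := by
    rw [lab_run, lab5]
  have hraw := raw5' _ _ _ _ _ _ _ _ hr hlab
  have hlab' := hlab
  rw [hr] at hlab'
  simp only [List.map_cons, List.map_nil, List.cons.injEq, and_true] at hlab'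
  obtain ⟨l0, l1, l2, l3, l4, l5⟩ := hlab'
  have hP1 : s1.col * s2.col = 1 := by
    have := hv.top 1
    rw [hr] at this
    exact this
  have hP3 : s3.col * s4.col = 1 := by
    have := hv.top 3
    rw [hr] at this
    exact this
  have hP0 : s0.col * s5.col = 1 := by
    have := hv.top 0
    rw [hr] at this
    exact this
  have htr := tr_run (fun i => tr (v i)) (fam 5) (start v) (by
    rw [start6]
    intro s hs
    simp only [List.mem_cons, List.not_mem_nil, or_false] at hs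
    rcases hs with rfl | rfl | rfl | rfl | rfl | rfl <;> rfl)
  rw [hr] at htr
  have t1 : tr s1.col = tr (v 1) := by rw [htr s1 (by simp), l1]
  have t2 : tr s2.col = tr (v 3) := by rw [htr s2 (by simp), l2]
  have t3 : tr s3.col = tr (v 2) := by rw [htr s3 (by simp), l3]
  have t4 : tr s4.col = tr (v 5) := by rw [htr s4 (by simp), l4]
  have hY : tr (v 2) = t.val := by
    rw [hv3, tr_inv, eq_inv_of_mul_eq_one_right hP1, tr_inv, t1, hv1, tr_inv, htv0] at t2
    exact t2.symm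
  have hZ : tr (v 4) = t.val := by
    rw [hv5, tr_inv, eq_inv_of_mul_eq_one_right hP3, tr_inv, t3, hY] at t4
    exact t4.symm
  have mY : code (v 2) ∈ cl t.val := by
    have := mem_cl (A := v 2) (by rw [hY]; exact htne)
    rwa [hY] at this
  have mZ : code (v 4) ∈ cl t.val := by
    have := mem_cl (A := v 4) (by rw [hZ]; exact htne)
    rwa [hZ] at this
  have hleaf : leafC (code (v 0)) (code (v 2)) (code (v 4)) = true := by
    simp only [hv1, hv3] at c1 c2
    rw [c1, c2] at hP1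
    exact outer_sound t (v 0) (v 2) (v 4) _ _ _ _ _ _ _ _ _ _ hv0 mY mZ rfl rfl rfl rfl rfl rfl
      rfl rfl rfl rfl (step_eq _ _ _ _ _ rfl hP1) (outer_all t.toFin htne)
  have hl : leafC (code (v 0)) (code (v 2)) (code (v 4)) =
      endC (code (v 0)) ((run (fam 5) (start v)).map cs) := by
    refine Eq.trans ?_ (runC_eq (fam 5) (start v) (endC (code (v 0))))
    unfold leafC
    rw [start6]
    simp only [List.map_cons, List.map_nil, cs, code_one, hv1, hv3, hv5, code_inv]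
  have hraw2 := (raw_iff v (-2)).1 hv.slope
  rw [hraw] at hraw2
  have e16 : v 0 ^ ((14 : ℤ) - (-2)) = (v 0 * v 0 * (v 0 * v 0)) * (v 0 * v 0 * (v 0 * v 0)) *
      ((v 0 * v 0 * (v 0 * v 0)) * (v 0 * v 0 * (v 0 * v 0))) := by
    have h16 : (14 : ℤ) - (-2) = ((16 : ℕ) : ℤ) := by norm_num
    rw [h16, zpow_natCast]
    simp only [pow_succ, pow_zero, one_mul, mul_assoc]
  rw [hl, hr] at hleaf
  simp only [List.map_cons, List.map_nil, endC, cs, rawC, sqC, ← code_mul, ← code_inv] at hleaf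
  rw [hP0, hP3, hraw2, e16, code_one, Nat.beq_refl, Nat.beq_refl] at hleaf
  exact absurd hleaf (by decide)

/-- Elements of `SL(2, 8)` for a homomorphism for the slope `2`. -/
def exX : S8 := comp ⟨1, by decide⟩

def exY : S8 := ⟨!![(⟨1, by decide⟩ : F8), ⟨2, by decide⟩; ⟨5, by decide⟩, ⟨0, by decide⟩], by
  rw [Matrix.det_fin_two_of]
  apply F8.ext'
  decide +kernel⟩

def exZ : S8 := ⟨!![(⟨0, by decide⟩ : F8), ⟨3, by decide⟩; ⟨6, by decide⟩, ⟨1, by decide⟩], by
  rw [Matrix.det_fin_two_of]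
  apply F8.ext'
  decide +kernel⟩

def exC : Fin 6 → S8 := ![exX, exX⁻¹, exY, exY⁻¹, exZ, exZ⁻¹]

theorem code_exX : code exX = 584 := by decide +kernel
theorem code_exY : code exY = 337 := by decide +kernel
theorem code_exZ : code exZ = 920 := by decide +kernel

theorem run_exC : (run (fam 5) (start exC)).map cs =
    [(920, 2286), (1898, 3083), (1387, 2702), (2724, 1324), (2213, 3787), (409, 3446)] := by
  refine (runC_eq (α := List (ℕ × ℕ)) (fam 5) (start exC) (fun l => l)).symm.trans ?_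
  have h : (start exC).map cs = [(584, 513), (invN 584, 513), (337, 513), (invN 337, 513),
      (920, 513), (invN 920, 513)] := by
    rw [start6]
    simp only [List.map_cons, List.map_nil, cs, code_one]
    simp only [exC]
    simp [code_exX, code_exY, code_exZ, code_inv]
  rw [h]
  decide +kernel

theorem code_mul_eq_one {A B : S8} (h : mulN (code A) (code B) = 513) : A * B = 1 :=
  code_inj (by rw [code_mul, code_one, h])

theorem good_ex : Good caps6 (fam 5) 2 1 exC := by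
  obtain ⟨s0, s1, s2, s3, s4, s5, hr⟩ := list6 (run (fam 5) (start exC))
    (by rw [run_length, start_length])
  have h := run_exC
  rw [hr] at h
  simp only [List.map_cons, List.map_nil, List.cons.injEq, and_true, cs, Prod.mk.injEq] at h
  obtain ⟨⟨a0, b0⟩, ⟨a1, b1⟩, ⟨a2, b2⟩, ⟨a3, b3⟩, ⟨a4, b4⟩, ⟨a5, b5⟩⟩ := h
  have hlab : (run (fam 5) (start exC)).map St.lab = [0, 1, 3, 2, 5, 4] := by
    rw [lab_run, lab5]
  have hraw := raw5' _ _ _ _ _ _ _ _ hr hlab
  have p05 : s0.col * s5.col = 1 := code_mul_eq_one (by rw [a0, a5]; decide +kernel)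
  have p50 : s5.col * s0.col = 1 := code_mul_eq_one (by rw [a0, a5]; decide +kernel)
  have p12 : s1.col * s2.col = 1 := code_mul_eq_one (by rw [a1, a2]; decide +kernel)
  have p21 : s2.col * s1.col = 1 := code_mul_eq_one (by rw [a1, a2]; decide +kernel)
  have p34 : s3.col * s4.col = 1 := code_mul_eq_one (by rw [a3, a4]; decide +kernel)
  have p43 : s4.col * s3.col = 1 := code_mul_eq_one (by rw [a3, a4]; decide +kernel)
  refine ⟨?_, ?_, ?_⟩
  · intro i
    fin_cases i <;> simp [exC, caps6]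
  · intro i
    rw [hr]
    fin_cases i
    · exact p05
    · exact p12
    · exact p21
    · exact p34
    · exact p43
    · exact p50
  · change exC 0 ^ (2 : ℤ) * caps6.lon (fam 5) exC ^ (1 : ℤ) = 1
    rw [raw_iff, hraw]
    apply code_inj
    have h12 : (14 : ℤ) - 2 = ((12 : ℕ) : ℤ) := by norm_num
    rw [h12, zpow_natCast]
    have h0 : exC 0 = exX := rfl
    rw [h0]
    simp only [pow_succ, pow_zero, one_mul, code_mul, code_inv, code_exX, b0, b1, b2, b3, b4, b5]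
    decide +kernel

theorem exC_sq : exC 0 * exC 0 ≠ 1 := by
  intro h
  have h2 := congrArg code h
  have h0 : exC 0 = exX := rfl
  rw [h0, code_mul, code_exX, code_one] at h2
  revert h2
  decide +kernel

instance : Finite S8 := inferInstance

theorem good_neg_imp (c : Fin 6 → S8) (h : Good caps6 (fam 5) (-2) 1 c) :
    Good caps6 (fam 5) 2 1 c := by
  refine ⟨h.bot, h.top, ?_⟩
  have hk := key c h
  have h2 : c 0 ^ (2 : ℤ) = 1 := by rw [zpow_two, hk]
  have hm : c 0 ^ (-2 : ℤ) = 1 := by rw [zpow_neg, h2, inv_one]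
  have hs := h.slope
  change c 0 ^ (-2 : ℤ) * caps6.lon (fam 5) c ^ (1 : ℤ) = 1 at hs
  change c 0 ^ (2 : ℤ) * caps6.lon (fam 5) c ^ (1 : ℤ) = 1
  rw [h2]
  rwa [hm] at hs

theorem count_lt : caps6.homCount S8 (fam 5) (-2) 1 < caps6.homCount S8 (fam 5) 2 1 := by
  rw [homCount_eq, homCount_eq]
  have hsub : {c : Fin 6 → S8 | Good caps6 (fam 5) (-2) 1 c} ⊂
      {c : Fin 6 → S8 | Good caps6 (fam 5) 2 1 c} := by
    refine ⟨fun c hc => good_neg_imp c hc, fun hle => ?_⟩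
    exact exC_sq (key exC (hle good_ex))
  exact Set.ncard_lt_ncard hsub (Set.toFinite _)

def p126C (x : ℕ) : ℕ :=
  force (mulN (mulN x x) x) fun c3 => force (mulN (mulN c3 c3) c3) fun c9 =>
    force (mulN c9 c9) fun c18 => force (mulN c18 c18) fun c36 =>
      force (mulN (mulN c36 c18) c9) fun c63 => mulN c63 c63

theorem p126_all : ∀ a b c d : Fin 8, Nat.xor (fmN a.val d.val) (fmN b.val c.val) = 1 →
    p126C (cd a.val b.val c.val d.val) = 513 := by decide +kernel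

theorem pow126 (g : S8) : g ^ 126 = 1 := by
  have h : p126C (code g) = 513 :=
    p126_all (g.1 0 0).toFin (g.1 0 1).toFin (g.1 1 0).toFin (g.1 1 1).toFin (det_eq g)
  apply code_inj
  rw [code_one, ← h]
  unfold p126C
  rw [force_eq, force_eq, force_eq, force_eq, force_eq]
  simp only [← code_mul]
  congr 1
  have h3 : g * g * g = g ^ 3 := by simp only [pow_succ, pow_zero, one_mul]
  have h9 : g ^ 3 * g ^ 3 * g ^ 3 = g ^ 9 := by rw [← pow_add, ← pow_add]
  have h18 : g ^ 9 * g ^ 9 = g ^ 18 := by rw [← pow_add]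
  have h36 : g ^ 18 * g ^ 18 = g ^ 36 := by rw [← pow_add]
  have h63 : g ^ 36 * g ^ 18 * g ^ 9 = g ^ 63 := by rw [← pow_add, ← pow_add]
  have h126 : g ^ 63 * g ^ 63 = g ^ 126 := by rw [← pow_add]
  rw [h3, h9, h18, h36, h63, h126]

end Vale.Agent.P258.Braid
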