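import Vale.Agent.P258.R2.H390.G7Code

set_option linter.all false

namespace Vale.Agent.P258.Seven

open Vale.Agent.P258.Second (force force_eq)
open Matrix

theorem cd3_digits : ∀ a b c : Fin 8,
    Nat.land (cd3 a.val b.val c.val) 7 = a.val ∧
    Nat.land (Nat.shiftRight (cd3 a.val b.val c.val) 3) 7 = b.val ∧
    Nat.shiftRight (cd3 a.val b.val c.val) 6 = c.val := by
  decide +kernel

theorem row_lt : ∀ a b c : ZMod 2, rowN a.val b.val c.val < 8 := by decide +kernel

theorem row_inj : ∀ a b c a' b' c' : ZMod 2,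
    rowN a.val b.val c.val = rowN a'.val b'.val c'.val → a = a' ∧ b = b' ∧ c = c' := by
  decide +kernel

/-- The code of a row. -/
def rc (A : M3) (i : Fin 3) : ℕ := rowN (A i 0).val (A i 1).val (A i 2).val

/-- The code of a matrix. -/
def codeM (A : M3) : ℕ := cd3 (rc A 0) (rc A 1) (rc A 2)

theorem rc_lt (A : M3) (i : Fin 3) : rc A i < 8 := row_lt _ _ _

theorem codeM_digits (A : M3) :
    Nat.land (codeM A) 7 = rc A 0 ∧ Nat.land (Nat.shiftRight (codeM A) 3) 7 = rc A 1 ∧
    Nat.shiftRight (codeM A) 6 = rc A 2 :=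
  cd3_digits ⟨rc A 0, rc_lt A 0⟩ ⟨rc A 1, rc_lt A 1⟩ ⟨rc A 2, rc_lt A 2⟩

theorem codeM_inj {A B : M3} (h : codeM A = codeM B) : A = B := by
  obtain ⟨h1, h2, h3⟩ := codeM_digits A
  obtain ⟨k1, k2, k3⟩ := codeM_digits B
  rw [h] at h1 h2 h3
  have e0 := row_inj _ _ _ _ _ _ (h1.symm.trans k1)
  have e1 := row_inj _ _ _ _ _ _ (h2.symm.trans k2)
  have e2 := row_inj _ _ _ _ _ _ (h3.symm.trans k3)
  ext i j
  fin_cases i <;> fin_cases j
  · exact e0.1
  · exact e0.2.1
  · exact e0.2.2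
  · exact e1.1
  · exact e1.2.1
  · exact e1.2.2
  · exact e2.1
  · exact e2.2.1
  · exact e2.2.2

theorem row_mul : ∀ a b c b0 b1 b2 b3 b4 b5 b6 b7 b8 : ZMod 2,
    rowB (tabA (rowN b0.val b1.val b2.val) (rowN b3.val b4.val b5.val)
      (rowN b6.val b7.val b8.val)) (rowN a.val b.val c.val) =
      rowN (a * b0 + b * b3 + c * b6).val (a * b1 + b * b4 + c * b7).val
        (a * b2 + b * b5 + c * b8).val := by
  decide +kernel

theorem codeM_mul (A B : M3) : codeM (A * B) = mulB (codeM A) (codeM B) := by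
  obtain ⟨h1, h2, h3⟩ := codeM_digits A
  obtain ⟨k1, k2, k3⟩ := codeM_digits B
  unfold mulB
  rw [force_eq, force_eq, h1, h2, h3, k1, k2, k3]
  unfold mulA
  have e : ∀ i, rowB (tabA (rc B 0) (rc B 1) (rc B 2)) (rc A i) = rc (A * B) i := by
    intro i
    unfold rc
    rw [row_mul]
    simp only [Matrix.mul_apply, Fin.sum_univ_three]
  rw [e, e, e]
  rfl

theorem codeM_one : codeM 1 = 273 := by decide +kernel

/-- The bit of a code. -/
def bitB (x k : ℕ) : ZMod 2 := ((Nat.land (Nat.shiftRight x k) 1 : ℕ) : ZMod 2)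

/-- The matrix of a code. -/
def dec (x : ℕ) : M3 :=
  !![bitB x 0, bitB x 1, bitB x 2; bitB x 3, bitB x 4, bitB x 5; bitB x 6, bitB x 7, bitB x 8]

def detN (a b c d e f g h i : ZMod 2) : ZMod 2 :=
  a * e * i - a * f * h - b * d * i + b * f * g + c * d * h - c * e * g

theorem det_codeM (A : M3) : A.det =
    detN (A 0 0) (A 0 1) (A 0 2) (A 1 0) (A 1 1) (A 1 2) (A 2 0) (A 2 1) (A 2 2) :=
  Matrix.det_fin_three A

def enc (a b c d e f g h i : ZMod 2) : ℕ :=
  cd3 (rowN a.val b.val c.val) (rowN d.val e.val f.val) (rowN g.val h.val i.val)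

theorem all7 : ∀ a b c d e f g h i : ZMod 2, detN a b c d e f g h i = 1 →
    (mulB (enc a b c d e f g h i) (invB (enc a b c d e f g h i)) = 273 ∧
      codeM (dec (invB (enc a b c d e f g h i))) = invB (enc a b c d e f g h i)) ∧
    (mulB (enc a b c d e f g h i) (enc a b c d e f g h i) ≠ 273 →
      (dec (wB (enc a b c d e f g h i))).det = 1 ∧
      codeM (dec (wB (enc a b c d e f g h i))) = wB (enc a b c d e f g h i) ∧
      mulB (mulB (wB (enc a b c d e f g h i)) (enc a b c d e f g h i))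
        (invB (wB (enc a b c d e f g h i))) ∈ [85, 86, 94, 95]) ∧
    (∀ r ∈ [85, 86, 94, 95], mulB (mulB (invB (enc a b c d e f g h i)) (invB r))
      (enc a b c d e f g h i) ∈ cl7 r) ∧
    pC 7 (enc a b c d e f g h i) 84 = 273 := by
  decide +kernel

end Vale.Agent.P258.Seven
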