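import Vale.Agent.P258.R2.H390.G7

set_option linter.all false

namespace Vale.Agent.P258.Seven

open Vale.Agent.P258.Second (force force_eq)
open Matrix

/-- The code of an element. -/
def code (A : G7) : ℕ := codeM A.1

theorem code_mul (A B : G7) : code (A * B) = mulB (code A) (code B) := by
  unfold code
  rw [Matrix.SpecialLinearGroup.coe_mul, codeM_mul]

theorem code_one : code 1 = 273 := codeM_one

theorem code_inj {A B : G7} (h : code A = code B) : A = B := Subtype.ext (codeM_inj h)

theorem allA (A : G7) :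
    (mulB (code A) (invB (code A)) = 273 ∧
      codeM (dec (invB (code A))) = invB (code A)) ∧
    (mulB (code A) (code A) ≠ 273 →
      (dec (wB (code A))).det = 1 ∧
      codeM (dec (wB (code A))) = wB (code A) ∧
      mulB (mulB (wB (code A)) (code A)) (invB (wB (code A))) ∈ [85, 86, 94, 95]) ∧
    (∀ r ∈ [85, 86, 94, 95], mulB (mulB (invB (code A)) (invB r)) (code A) ∈ cl7 r) ∧
    pC 7 (code A) 84 = 273 := by
  have e : enc (A.1 0 0) (A.1 0 1) (A.1 0 2) (A.1 1 0) (A.1 1 1) (A.1 1 2)
    (A.1 2 0) (A.1 2 1) (A.1 2 2) = code A := rfl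
  have h := all7 (A.1 0 0) (A.1 0 1) (A.1 0 2) (A.1 1 0) (A.1 1 1) (A.1 1 2)
    (A.1 2 0) (A.1 2 1) (A.1 2 2) ((det_codeM A.1).symm.trans A.2)
  rw [e] at h
  exact h

theorem code_inv (A : G7) : code A⁻¹ = invB (code A) := by
  have h1 : mulB (code A) (invB (code A)) = 273 := (allA A).1.1
  have h2 : codeM (dec (invB (code A))) = invB (code A) := (allA A).1.2
  have h3 : A.1 * dec (invB (code A)) = 1 := by
    apply codeM_inj
    rw [codeM_mul, h2, codeM_one]
    exact h1
  have h4 : (A⁻¹).1 = dec (invB (code A)) := by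
    have h5 : (A⁻¹).1 * A.1 = 1 := by
      have := congrArg Subtype.val (inv_mul_cancel A)
      exact this
    calc (A⁻¹).1 = (A⁻¹).1 * (A.1 * dec (invB (code A))) := by rw [h3, mul_one]
      _ = (A⁻¹).1 * A.1 * dec (invB (code A)) := by rw [Matrix.mul_assoc]
      _ = dec (invB (code A)) := by rw [h5, one_mul]
  change codeM (A⁻¹).1 = _
  rw [h4, h2]

theorem exists_w {A : G7} (h : A * A ≠ 1) :
    ∃ W : G7, code (W * A * W⁻¹) ∈ [85, 86, 94, 95] := by
  have hne : mulB (code A) (code A) ≠ 273 := by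
    intro h2
    exact h (code_inj (by rw [code_mul, code_one, h2]))
  obtain ⟨h1, h2, h3⟩ := (allA A).2.1 hne
  let W : G7 := ⟨dec (wB (code A)), h1⟩
  have hW : code W = wB (code A) := h2
  refine ⟨W, ?_⟩
  rw [code_mul, code_mul, code_inv, hW]
  exact h3

theorem conj_mem {R : G7} (hR : code R ∈ [85, 86, 94, 95]) (g : G7) :
    code (g⁻¹ * R⁻¹ * g) ∈ cl7 (code R) := by
  rw [code_mul, code_mul, code_inv, code_inv]
  exact (allA g).2.2.1 _ hR

theorem pC_code : ∀ (f k : ℕ) (g : G7), k < 2 ^ f → pC f (code g) k = code (g ^ k)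
  | 0, k, g, h => by
    have : k = 0 := by simpa using h
    rw [this, pow_zero, code_one]
    rfl
  | f + 1, k, g, h => by
    have hk : k / 2 < 2 ^ f := by
      rw [pow_succ] at h
      omega
    have ih := pC_code f (k / 2) (g * g) hk
    rw [code_mul] at ih
    unfold pC
    rw [force_eq]
    have hd : Nat.div k 2 = k / 2 := rfl
    have hm : Nat.mod k 2 = k % 2 := rfl
    rw [hd, hm, ih]
    have h2 : (g * g) ^ (k / 2) = g ^ (2 * (k / 2)) := by rw [pow_mul, pow_two]
    rw [h2]
    rcases Nat.mod_two_eq_zero_or_one k with h0 | h1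
    · have e : 2 * (k / 2) = k := by omega
      have hb : Nat.beq 0 1 = false := rfl
      rw [h0, e, hb, cond_false]
    · have e : 1 + 2 * (k / 2) = k := by omega
      have hb : Nat.beq 1 1 = true := rfl
      have e2 : g ^ k = g * g ^ (2 * (k / 2)) := by
        conv_lhs => rw [← e, pow_add, pow_one]
      rw [h1, hb, cond_true, ← code_mul, e2]

theorem pow84 (g : G7) : g ^ 84 = 1 := by
  have h := (allA g).2.2.2
  have h2 := pC_code 7 84 g (by norm_num)
  apply code_inj
  rw [← h2, code_one]
  exact h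

theorem beq_code (A : G7) : Nat.beq (code A) 273 = true ↔ A = 1 := by
  rw [← code_one]
  constructor
  · intro h
    exact code_inj (Nat.eq_of_beq_eq_true h)
  · rintro rfl
    exact Nat.beq_refl _

theorem beq_code' (A B : G7) : Nat.beq (code A) (code B) = true ↔ A = B := by
  constructor
  · intro h
    exact code_inj (Nat.eq_of_beq_eq_true h)
  · rintro rfl
    exact Nat.beq_refl _

end Vale.Agent.P258.Seven
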