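import Vale.Agent.P258.R2.H390.G7Code

set_option linter.all false

namespace Vale.Agent.P258.Seven

open Vale.Agent.P258.Second (force force_eq)

def fullC (n h k x y z : ℕ) : Bool :=
  force (invB x) fun xi => force (invB y) fun yi => force (invB z) fun zi =>
  force (mulB y xi) fun q => force (invB q) fun qi =>
  force (mulB (mulB qi xi) q) fun b => force (mulB x q) fun bt =>
  force (mulB (mulB qi y) q) fun c => force (mulB yi q) fun ct =>
  force (mulB z yi) fun q1 => force (invB q1) fun q1i =>
  force (mulB (mulB q1i yi) q1) fun d => force (mulB y q1) fun dt =>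
  force (mulB (mulB q1i z) q1) fun e => force (mulB zi q1) fun et =>
  force (mulB b x) fun p => force (pC 8 p n) fun pn => force (invB pn) fun pm =>
  force (mulB d c) fun r => force (pC 7 r h) fun rh => force (invB rh) fun rm =>
  force (mulB zi e) fun t => force (pC 8 t n) fun tn => force (invB tn) fun tm =>
  force (mulB (mulB rm c) rh) fun c1 => force (mulB (mulB rm d) rh) fun d1 =>
  force (mulB (mulB tn e) tm) fun e1 => force (mulB (mulB tn zi) tm) fun f1 =>
  Nat.beq (mulB (mulB (mulB pn b) pm) (mulB (mulB (invB c1) d1) c1)) 273 &&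
  (Nat.beq (mulB c1 (mulB (mulB (invB e1) f1) e1)) 273 &&
  (Nat.beq (mulB (mulB (mulB pn x) pm) e1) 273 &&
  Nat.beq (mulB (mulB (mulB (mulB (mulB (mulB (pC 8 x n) pm)
    (invB (mulB (mulB et (pC 8 e n)) tm)))
    (mulB (mulB (pC 8 zi n) tm) e1))
    (invB (mulB (mulB ct (invB (pC 7 c h))) rh)))
    (mulB (mulB (mulB dt (invB (pC 7 d h))) rh) c1))
    (invB (mulB (mulB bt (pC 8 b n)) pm))) (pC 9 x k)))

def enumN (n h k x0 : ℕ) : Bool :=
  force x0 fun x => force (invB x) fun xi =>
    (cl7 x).all fun y => force (invB y) fun yi =>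
      force (mulB y xi) fun q => force (invB q) fun qi =>
      force (mulB (mulB qi xi) q) fun a1 => force (mulB (mulB qi y) q) fun l2 =>
      force (invB l2) fun l2i =>
      force (mulB a1 x) fun p => force (pC 8 p n) fun pn =>
      force (mulB (mulB pn (invB a1)) (invB pn)) fun Ai =>
      (cl7 x).all fun z => force (mulB z yi) fun q1 => force (mulB (mulB (invB q1) yi) q1) fun l3 =>
        force (mulB l3 l2) fun r => force (pC 7 r h) fun rh =>
          !(Nat.beq (mulB (mulB l2i r) rh) (mulB rh Ai)) || !(fullC n h k x y z)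

/-- All four classes of elements whose square is not trivial. -/
def enumAll (n h k : ℕ) : Bool :=
  enumN n h k 85 && (enumN n h k 86 && (enumN n h k 94 && enumN n h k 95))

end Vale.Agent.P258.Seven
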