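import Vale.Agent.P258.R2.H390.G7b
import Vale.Agent.P258.R2.H390.G7e

set_option linter.all false

namespace Vale.Agent.P258.Seven

open Vale.Agent.P258.Second (force force_eq)

/-- The conditions for the word `fam (2 * h + 1)`, with colours `X, X⁻¹, Y, Y⁻¹, Z, Z⁻¹` at the
bottom; `k` is the exponent of the meridian which the product of the over-colours must be. -/
def Cond {H : Type} [Group H] (h k : ℕ) (X Y Z : H) : Prop :=
  let n := 2 * h + 1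
  let q := Y * X⁻¹
  let b := q⁻¹ * X⁻¹ * q
  let bt := X * q
  let c := q⁻¹ * Y * q
  let ct := Y⁻¹ * q
  let q1 := Z * Y⁻¹
  let d := q1⁻¹ * Y⁻¹ * q1
  let dt := Y * q1
  let e := q1⁻¹ * Z * q1
  let et := Z⁻¹ * q1
  let p := b * X
  let pn := p ^ n
  let r := d * c
  let rh := r ^ h
  let t := Z⁻¹ * e
  let tn := t ^ n
  let c1 := rh⁻¹ * c * rh
  let d1 := rh⁻¹ * d * rh
  let e1 := tn * e * tn⁻¹
  let f1 := tn * Z⁻¹ * tn⁻¹
  (pn * b * pn⁻¹) * (c1⁻¹ * d1 * c1) = 1 ∧ c1 * (e1⁻¹ * f1 * e1) = 1 ∧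
    (pn * X * pn⁻¹) * e1 = 1 ∧
    (X ^ n * pn⁻¹) * (et * e ^ n * tn⁻¹)⁻¹ * ((Z⁻¹) ^ n * tn⁻¹ * e1) *
      (ct * (c ^ h)⁻¹ * rh)⁻¹ * (dt * (d ^ h)⁻¹ * rh * c1) * (bt * b ^ n * pn⁻¹)⁻¹ = X ^ k

theorem fullC_iff (h k : ℕ) (hh : h < 127) (hk : k < 512) (X Y Z : G7) :
    fullC (2 * h + 1) h k (code X) (code Y) (code Z) = true ↔ Cond h k X Y Z := by
  have e7 : ∀ g : G7, pC 7 (code g) h = code (g ^ h) := fun g => pC_code 7 h g (by
    norm_num; omega)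
  have e8 : ∀ g : G7, pC 8 (code g) (2 * h + 1) = code (g ^ (2 * h + 1)) := fun g =>
    pC_code 8 (2 * h + 1) g (by norm_num; omega)
  have e9 : ∀ g : G7, pC 9 (code g) k = code (g ^ k) := fun g => pC_code 9 k g (by
    norm_num; omega)
  unfold fullC Cond
  simp only [force_eq, ← code_inv, ← code_mul, e7, e8, e9, Bool.and_eq_true, beq_code,
    beq_code']

end Vale.Agent.P258.Seven
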