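import Vale.Agent.P258.R2.H390.G7e

set_option linter.all false

namespace Vale.Agent.P258.Seven

theorem enum7 : enumAll 7 3 18 = true := by decide +kernel

theorem enum9 : enumAll 9 4 28 = true := by decide +kernel

theorem enum17 : enumAll 17 8 52 = true := by decide +kernel

theorem enum31 : enumAll 31 15 90 = true := by decide +kernel

theorem enum33 : enumAll 33 16 96 = true := by decide +kernel

end Vale.Agent.P258.Seven
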