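import Vale.Agent.P258.R2.H390.G7e

set_option linter.all false

namespace Vale.Agent.P258.Seven

theorem enum41 : enumAll 41 20 124 = true := by decide +kernel

theorem enum55 : enumAll 55 27 162 = true := by decide +kernel

theorem enum65 : enumAll 65 32 196 = true := by decide +kernel

theorem enum73 : enumAll 73 36 220 = true := by decide +kernel

theorem enum79 : enumAll 79 39 234 = true := by decide +kernel

end Vale.Agent.P258.Seven
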