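import Vale.Agent.P258.R2.H390.G7e

set_option linter.all false

namespace Vale.Agent.P258.Seven

theorem enum89 : enumAll 89 44 268 = true := by decide +kernel

theorem enum95 : enumAll 95 47 282 = true := by decide +kernel

theorem enum103 : enumAll 103 51 306 = true := by decide +kernel

theorem enum113 : enumAll 113 56 340 = true := by decide +kernel

theorem enum127 : enumAll 127 63 378 = true := by decide +kernel

end Vale.Agent.P258.Seven
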