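import Vale.Agent.P258.R2.H390.G7e

set_option linter.all false

namespace Vale.Agent.P258.Seven

theorem enum135 : enumAll 135 67 406 = true := by decide +kernel

theorem enum137 : enumAll 137 68 412 = true := by decide +kernel

theorem enum151 : enumAll 151 75 450 = true := by decide +kernel

theorem enum159 : enumAll 159 79 474 = true := by decide +kernel

theorem enum161 : enumAll 161 80 484 = true := by decide +kernel

end Vale.Agent.P258.Seven
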