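import Vale.Agent.P258.R2.H390.Congr

set_option linter.all false

/-!
The action of the braid group on rows of coloured strands.
-/

namespace Vale.Agent.P258.Braid

open Function

/-- Rows of `m` strands. -/
abbrev Row (m : ℕ) (H : Type) [Group H] := {l : List (St m H) // l.length = m}

section

variable {m : ℕ} {H : Type} [Group H]

instance finiteSt [Finite H] : Finite (St m H) :=
  Finite.of_injective (fun s : St m H => (s.lab, s.col, s.tr)) (by
    intro s t h
    simp only [Prod.mk.injEq] at h
    exact St.ext h.1 h.2.1 h.2.2)

instance finiteRow [Finite H] : Finite (Row m H) := by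
  haveI := Fintype.ofFinite (St m H)
  exact (inferInstance : Finite (List.Vector (St m H) m))

/-- The crossing at the position `i`, as a permutation (inverted, to get a homomorphism). -/
def crossPerm (i : ℕ) (e : Bool) : Equiv.Perm (Row m H) where
  toFun l := ⟨cross i (!e) l.1, by rw [cross_length]; exact l.2⟩
  invFun l := ⟨cross i e l.1, by rw [cross_length]; exact l.2⟩
  left_inv l := Subtype.ext (by
    have h := cross_inv (!e) i l.1
    rw [Bool.not_not] at h
    exact h)
  right_inv l := Subtype.ext (cross_inv e i l.1)

theorem cross_out (e : Bool) : ∀ (i : ℕ) (l : List (St m H)), l.length ≤ i + 1 → cross i e l = l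
  | 0, [], _ => rfl
  | 0, [_], _ => rfl
  | 0, s :: t :: l, h => by simp at h
  | i + 1, [], _ => rfl
  | i + 1, s :: l, h => by
    simp only [cross]
    rw [cross_out e i l (by simpa using h)]

variable (m H) in
/-- The action of the braid group. -/
def act : BraidGroup m →* Equiv.Perm (Row m H) :=
  PresentedGroup.toGroup (f := fun i : Fin (m - 1) => crossPerm i.val true) (by
    rintro r (⟨i, j, hij, rfl⟩ | ⟨i, j, hij, rfl⟩)
    · rw [map_mul, map_inv, mul_inv_eq_one]
      simp only [map_mul, FreeGroup.lift_apply_of]
      ext1 l
      apply Subtype.ext
      change cross i.val false (cross j.val false (cross i.val false l.1)) =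
        cross j.val false (cross i.val false (cross j.val false l.1))
      rw [← hij]
      apply cross_braid
      have := l.2
      have := j.2
      omega
    · rw [map_mul, map_inv, mul_inv_eq_one]
      simp only [map_mul, FreeGroup.lift_apply_of]
      ext1 l
      apply Subtype.ext
      change cross i.val false (cross j.val false l.1) = cross j.val false (cross i.val false l.1)
      exact (cross_comm false false i.val j.val l.1 hij).symm)

theorem act_letter (x : ℕ × Bool) : act m H (letter m x) = crossPerm x.1 x.2 := by
  unfold letter
  split_ifs with h h2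
  · have : act m H (PresentedGroup.of (⟨x.1, h⟩ : Fin (m - 1))) = crossPerm x.1 true :=
      PresentedGroup.toGroup.of _
    rw [this, h2]
  · have : act m H (PresentedGroup.of (⟨x.1, h⟩ : Fin (m - 1))) = crossPerm x.1 true :=
      PresentedGroup.toGroup.of _
    rw [map_inv, this]
    have h3 : x.2 = false := by simpa using h2
    rw [h3]
    ext1 l
    rfl
  · rw [map_one]
    ext1 l
    apply Subtype.ext
    change l.1 = cross x.1 (!x.2) l.1
    rw [cross_out _ _ _ (by rw [l.2]; omega)]

theorem act_toBraid (w : Word) (l : Row m H) : (act m H (toBraid m w) l).1 = run (inverse w) l.1 := by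
  induction w generalizing l with
  | nil =>
    have : toBraid m [] = 1 := rfl
    rw [this, map_one]
    rfl
  | cons x w ih =>
    have h : toBraid m (x :: w) = letter m x * toBraid m w := by simp [toBraid]
    have h2 : inverse (x :: w) = inverse w ++ [(x.1, !x.2)] := by simp [inverse]
    rw [h, map_mul, Equiv.Perm.mul_apply, act_letter, h2, run_append, ← ih]
    rfl

theorem act_eq_iff (w w' : Word) : act m H (toBraid m w) = act m H (toBraid m w') ↔
    Same m H w w' := by
  constructor
  · intro h l hl
    have hl' : (run w' l).length = m := by rw [run_length, hl]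
    have h1 : run (inverse w) (run w' l) = l := by
      have h2 := congrArg (fun f => (f ⟨run w' l, hl'⟩).1) h
      simp only [act_toBraid] at h2
      rw [h2, run_inverse]
    have h3 : run w (run (inverse w) (run w' l)) = run w' l := by
      have := run_inverse (inverse w) (run w' l)
      rwa [inverse_inverse] at this
    rw [h1] at h3
    exact h3
  · intro h
    ext1 l
    apply Subtype.ext
    rw [act_toBraid, act_toBraid]
    have hl' : (run (inverse w) l.1).length = m := by rw [run_length, l.2]
    have h1 : run w' (run (inverse w) l.1) = l.1 := by
      rw [← h _ hl']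
      have := run_inverse (inverse w) l.1
      rwa [inverse_inverse] at this
    have h2 := run_inverse w' (run (inverse w) l.1)
    rw [h1] at h2
    exact h2.symm

end

/-- The braids acting trivially on rows coloured by `G` and by the cyclic group of order `N`. -/
def actKer (m : ℕ) (G : Type) [Group G] (N : ℕ) : Subgroup (BraidGroup m) :=
  ((act m G).prod (act m (Multiplicative (ZMod N)))).ker

instance (m : ℕ) (G : Type) [Group G] (N : ℕ) : (actKer m G N).Normal := by
  unfold actKer; infer_instance

theorem actKer_finiteIndex (m : ℕ) (G : Type) [Group G] [Finite G] (N : ℕ) (hN : 0 < N) :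
    (actKer m G N).FiniteIndex := by
  haveI : NeZero N := ⟨hN.ne'⟩
  haveI : Finite (Multiplicative (ZMod N)) := inferInstanceAs (Finite (ZMod N))
  unfold actKer
  infer_instance

theorem mem_actKer (m : ℕ) (G : Type) [Group G] (N : ℕ) (w w' : Word) :
    (toBraid m w)⁻¹ * toBraid m w' ∈ actKer m G N ↔ Equiv m G N w w' := by
  unfold actKer
  rw [MonoidHom.mem_ker, map_mul, map_inv, inv_mul_eq_one, MonoidHom.prod_apply,
    MonoidHom.prod_apply, Prod.mk.injEq, act_eq_iff, act_eq_iff]
  rfl

end Vale.Agent.P258.Braid
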