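import Vale.Agent.P258.R2.H390.Ex2
import Vale.Agent.P258.R2.H390.Grp

set_option linter.all false

/-!
Congruence classes of braids and the slopes `2`, `-2`.
-/

namespace Vale.Agent.P258.Braid

open Function

theorem isKnot_congr {m : ℕ} {G : Type} [Group G] (K : Caps m) {w w' : Word}
    (h : Same m G w w') : K.IsKnot w ↔ K.IsKnot w' := by
  have h1 := ups_congr K h
  have h2 : ((K.pass (run w (start fun _ => (1 : Multiplicative ℤ))))^[m / 2] (1, K.base)).2 =
      ((K.pass (run w' (start fun _ => (1 : Multiplicative ℤ))))^[m / 2] (1, K.base)).2 := by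
    rw [← walk_unit K w (fun _ => (1 : G)), ← walk_unit K w' (fun _ => (1 : G)),
      h _ (start_length _)]
  unfold Caps.IsKnot
  rw [h1, h2]

theorem general (m : ℕ) (G : Type) [Group G] [Finite G] (N : ℕ) (hpos : 0 < N)
    (hN : ∀ g : G, g ^ N = 1) :
    ∃ S : Subgroup (BraidGroup m), S.Normal ∧ S.FiniteIndex ∧
      ∀ w w' : Word, (toBraid m w)⁻¹ * toBraid m w' ∈ S → ∀ K : Caps m,
        (K.IsKnot w ↔ K.IsKnot w') ∧
        (∀ p q p' q' : ℤ, (N : ℤ) ∣ p' - p → (N : ℤ) ∣ q' - q →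
          K.homCount G w' p' q' = K.homCount G w p q) ∧
        (∀ p q r s p' q' r' s' : ℤ, K.homCount G w p q ≠ K.homCount G w r s →
          (N : ℤ) ∣ p' - p → (N : ℤ) ∣ q' - q → (N : ℤ) ∣ r' - r → (N : ℤ) ∣ s' - s →
          IsEmpty (PresentedGroup (K.relators w' p' q') ≃*
            PresentedGroup (K.relators w' r' s'))) := by
  refine ⟨actKer m G N, inferInstance, actKer_finiteIndex m G N hpos, ?_⟩
  intro w w' hS K
  have hE : Equiv m G N w w' := (mem_actKer m G N w w').1 hS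
  have hE' : Equiv m G N w' w := ⟨hE.1.symm', hE.2.symm'⟩
  refine ⟨isKnot_congr K hE.1, fun p q p' q' hp hq => homCount_congr K hN hE' hp hq, ?_⟩
  intro p q r s p' q' r' s' hne hp hq hr hs
  exact not_iso K hN hE' hp hq hr hs hne

theorem zmod_pow (N : ℕ) (g : Multiplicative (ZMod N)) : g ^ N = 1 := by
  apply Multiplicative.toAdd.injective
  rw [toAdd_pow, toAdd_one, nsmul_eq_mul, CharP.cast_eq_zero, zero_mul]

theorem same_fam {m : ℕ} {H : Type} [Group H] {N : ℕ} (hN : ∀ g : H, g ^ N = 1) {n n' : ℤ}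
    (h : (2 * N : ℤ) ∣ n - n') : Same m H (fam n) (fam n') := by
  intro l _
  have h1 : (2 * N : ℤ) ∣ (1 - 2 * n) - (1 - 2 * n') := by
    obtain ⟨k, hk⟩ := h
    exact ⟨-2 * k, by linear_combination -2 * hk⟩
  have h2 : (2 * N : ℤ) ∣ -2 * n - -2 * n' := by
    obtain ⟨k, hk⟩ := h
    exact ⟨-2 * k, by linear_combination -2 * hk⟩
  rw [run_fam, run_fam, hPerm_zpow_congr hN h1, hPerm_zpow_congr hN h2, hPerm_zpow_congr hN h]

theorem fam_equiv {m : ℕ} {G : Type} [Group G] {N : ℕ} (hN : ∀ g : G, g ^ N = 1) {n n' : ℤ}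
    (h : (2 * N : ℤ) ∣ n - n') : Equiv m G N (fam n) (fam n') :=
  ⟨same_fam hN h, same_fam (zmod_pow N) h⟩

theorem explicit :
    ∃ S : Subgroup (BraidGroup 6), S.Normal ∧ S.FiniteIndex ∧
      (∀ w : Word, (toBraid 6 (fam 5))⁻¹ * toBraid 6 w ∈ S → caps6.IsKnot w ∧
        ∀ p q r s : ℤ, 126 ∣ p - 2 → 126 ∣ q - 1 → 126 ∣ r + 2 → 126 ∣ s - 1 →
          IsEmpty (PresentedGroup (caps6.relators w p q) ≃*
            PresentedGroup (caps6.relators w r s))) ∧
      ∀ n : ℤ, 252 ∣ n - 5 → (toBraid 6 (fam 5))⁻¹ * toBraid 6 (fam n) ∈ S := by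
  refine ⟨actKer 6 S8 126, inferInstance, actKer_finiteIndex 6 S8 126 (by norm_num), ?_, ?_⟩
  · intro w hS
    have hE : Equiv 6 S8 126 (fam 5) w := (mem_actKer 6 S8 126 _ _).1 hS
    refine ⟨(isKnot_congr caps6 hE.1).1 knot5, ?_⟩
    intro p q r s hp hq hr hs
    exact not_iso caps6 pow126 ⟨hE.1.symm', hE.2.symm'⟩ (p' := 2) (q' := 1) (r' := -2) (s' := 1)
      (by exact_mod_cast hp) (by exact_mod_cast hq)
      (by rw [sub_neg_eq_add]; exact_mod_cast hr) (by exact_mod_cast hs) count_lt.ne'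
  · intro n hn
    rw [mem_actKer]
    refine fam_equiv pow126 ?_
    have : (2 * (126 : ℕ) : ℤ) = 252 := by norm_num
    rw [this]
    obtain ⟨k, hk⟩ := hn
    exact ⟨-k, by omega⟩

end Vale.Agent.P258.Braid
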