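import Vale.Agent.P258.R2.H390.Odd4

set_option linter.all false

/-!
Cosets of a normal subgroup of finite index of the braid group on six strands for which the slopes
`2` and `-2` are not cosmetic.
-/

namespace Vale.Agent.P258.Braid

open Function
open Vale.Agent.P258.Seven (G7 pow84)

theorem rep_of_class (n : ℤ) (h : 24 ∣ n - 7 ∨ 24 ∣ n + 7 ∨ 168 ∣ n - 9 ∨ 168 ∣ n + 9 ∨
    168 ∣ n - 33 ∨ 168 ∣ n + 33 ∨ 168 ∣ n - 73 ∨ 168 ∣ n + 73) :
    ∃ a : ℕ, a ∈ classes ∧ (168 : ℤ) ∣ n - (2 * (a : ℤ) + 1) := by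
  have h2 : n % 168 = 7 ∨ n % 168 = 9 ∨ n % 168 = 17 ∨ n % 168 = 31 ∨ n % 168 = 33 ∨
      n % 168 = 41 ∨ n % 168 = 55 ∨ n % 168 = 65 ∨ n % 168 = 73 ∨ n % 168 = 79 ∨ n % 168 = 89 ∨
      n % 168 = 95 ∨ n % 168 = 103 ∨ n % 168 = 113 ∨ n % 168 = 127 ∨ n % 168 = 135 ∨
      n % 168 = 137 ∨ n % 168 = 151 ∨ n % 168 = 159 ∨ n % 168 = 161 := by omega
  have key : ∀ a : ℕ, a ∈ classes → n % 168 = 2 * (a : ℤ) + 1 →
      ∃ a : ℕ, a ∈ classes ∧ (168 : ℤ) ∣ n - (2 * (a : ℤ) + 1) := by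
    intro a ha hn
    exact ⟨a, ha, by omega⟩
  rcases h2 with h | h | h | h | h | h | h | h | h | h | h | h | h | h | h | h | h | h | h | h
  · exact key 3 (by decide) (by rw [h]; norm_num)
  · exact key 4 (by decide) (by rw [h]; norm_num)
  · exact key 8 (by decide) (by rw [h]; norm_num)
  · exact key 15 (by decide) (by rw [h]; norm_num)
  · exact key 16 (by decide) (by rw [h]; norm_num)
  · exact key 20 (by decide) (by rw [h]; norm_num)
  · exact key 27 (by decide) (by rw [h]; norm_num)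
  · exact key 32 (by decide) (by rw [h]; norm_num)
  · exact key 36 (by decide) (by rw [h]; norm_num)
  · exact key 39 (by decide) (by rw [h]; norm_num)
  · exact key 44 (by decide) (by rw [h]; norm_num)
  · exact key 47 (by decide) (by rw [h]; norm_num)
  · exact key 51 (by decide) (by rw [h]; norm_num)
  · exact key 56 (by decide) (by rw [h]; norm_num)
  · exact key 63 (by decide) (by rw [h]; norm_num)
  · exact key 67 (by decide) (by rw [h]; norm_num)
  · exact key 68 (by decide) (by rw [h]; norm_num)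
  · exact key 75 (by decide) (by rw [h]; norm_num)
  · exact key 79 (by decide) (by rw [h]; norm_num)
  · exact key 80 (by decide) (by rw [h]; norm_num)

theorem equiv_trans {m : ℕ} {G : Type} [Group G] {N : ℕ} {u v w : Word}
    (h : Equiv m G N u v) (h' : Equiv m G N v w) : Equiv m G N u w :=
  ⟨h.1.trans' h'.1, h.2.trans' h'.2⟩

theorem explicit2 :
    ∃ S : Subgroup (BraidGroup 6), S.Normal ∧ S.FiniteIndex ∧
      ∀ n : ℤ, (24 ∣ n - 7 ∨ 24 ∣ n + 7 ∨ 168 ∣ n - 9 ∨ 168 ∣ n + 9 ∨ 168 ∣ n - 33 ∨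
          168 ∣ n + 33 ∨ 168 ∣ n - 73 ∨ 168 ∣ n + 73 ∨ 252 ∣ n - 5) →
        ∀ w : Word, (toBraid 6 (fam n))⁻¹ * toBraid 6 w ∈ S → caps6.IsKnot w ∧
          ∀ p q r s : ℤ, 252 ∣ p - 2 → 252 ∣ q - 1 → 252 ∣ r + 2 → 252 ∣ s - 1 →
            IsEmpty (PresentedGroup (caps6.relators w p q) ≃*
              PresentedGroup (caps6.relators w r s)) := by
  haveI f1 : (actKer 6 S8 126).FiniteIndex := actKer_finiteIndex 6 S8 126 (by norm_num)
  haveI f2 : (actKer 6 G7 84).FiniteIndex := actKer_finiteIndex 6 G7 84 (by norm_num)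
  refine ⟨actKer 6 S8 126 ⊓ actKer 6 G7 84, inferInstance, inferInstance, ?_⟩
  intro n hn w hS
  have hn' : (24 ∣ n - 7 ∨ 24 ∣ n + 7 ∨ 168 ∣ n - 9 ∨ 168 ∣ n + 9 ∨ 168 ∣ n - 33 ∨
      168 ∣ n + 33 ∨ 168 ∣ n - 73 ∨ 168 ∣ n + 73) ∨ 252 ∣ n - 5 := by tauto
  rcases hn' with hn | hn
  · obtain ⟨a, ha, hd⟩ := rep_of_class n hn
    have hE : Equiv 6 G7 84 (fam n) w := (mem_actKer 6 G7 84 _ _).1 hS.2
    have hF : Equiv 6 G7 84 (fam (2 * (a : ℤ) + 1)) (fam n) := by
      refine fam_equiv pow84 ?_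
      have : (2 * (84 : ℕ) : ℤ) = 168 := by norm_num
      rw [this]
      omega
    have hG := equiv_trans hF hE
    refine ⟨(isKnot_congr caps6 hG.1).1 (knot_odd a).2, ?_⟩
    intro p q r s hp hq hr hs
    exact not_iso caps6 pow84 ⟨hG.1.symm', hG.2.symm'⟩ (p' := 2) (q' := 1) (r' := -2) (s' := 1)
      (by push_cast; omega) (by push_cast; omega) (by push_cast; omega) (by push_cast; omega)
      (sep_all a ha)
  · have hE : Equiv 6 S8 126 (fam n) w := (mem_actKer 6 S8 126 _ _).1 hS.1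
    have hF : Equiv 6 S8 126 (fam 5) (fam n) := by
      refine fam_equiv pow126 ?_
      have : (2 * (126 : ℕ) : ℤ) = 252 := by norm_num
      rw [this]
      omega
    have hG := equiv_trans hF hE
    refine ⟨(isKnot_congr caps6 hG.1).1 knot5, ?_⟩
    intro p q r s hp hq hr hs
    exact not_iso caps6 pow126 ⟨hG.1.symm', hG.2.symm'⟩ (p' := 2) (q' := 1) (r' := -2) (s' := 1)
      (by push_cast; omega) (by push_cast; omega) (by push_cast; omega) (by push_cast; omega)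
      count_lt.ne'

end Vale.Agent.P258.Braid
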