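import Vale.Agent.P258.R2.H390.BrDefs

set_option linter.all false

/-!
Naturality of the action of braid words, and the homomorphisms of the groups of surgeries.
-/

namespace Vale.Agent.P258.Braid

open Function

variable {m : ℕ} {H H' : Type*} [Group H] [Group H']

/-- The effect of a homomorphism on the state of a strand. -/
def St.map (φ : H →* H') (s : St m H) : St m H' := ⟨s.lab, φ s.col, φ s.tr⟩

theorem half_map (φ : H →* H') (e : Bool) (s t : St m H) :
    half e (s.map φ) (t.map φ) = ((half e s t).1.map φ, (half e s t).2.map φ) := by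
  cases e <;> simp [half, St.map]

theorem cross_map (φ : H →* H') (e : Bool) : ∀ (i : ℕ) (l : List (St m H)),
    cross i e (l.map (St.map φ)) = (cross i e l).map (St.map φ)
  | 0, [] => rfl
  | 0, [_] => rfl
  | 0, s :: t :: l => by
    simp only [List.map_cons, cross, half_map]
  | i + 1, [] => rfl
  | i + 1, s :: l => by
    simp only [List.map_cons, cross]
    rw [cross_map φ e i l]

theorem run_map (φ : H →* H') (w : Word) : ∀ l : List (St m H),
    run w (l.map (St.map φ)) = (run w l).map (St.map φ) := by
  induction w with
  | nil => intro l; rfl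
  | cons x w ih =>
    intro l
    change run w (cross x.1 x.2 (l.map _)) = (run w (cross x.1 x.2 l)).map _
    rw [cross_map, ih]

theorem start_map (φ : H →* H') (c : Fin m → H) :
    (start c).map (St.map φ) = start fun i => φ (c i) := by
  unfold start
  rw [List.map_ofFn]
  congr 1
  funext i
  simp [St.map]

theorem pick_map (φ : H →* H') (l : List (St m H)) (p : Fin m) :
    pick (l.map (St.map φ)) p = (pick l p).map φ := by
  unfold pick
  rw [List.getD_eq_getElem?_getD, List.getD_eq_getElem?_getD, List.getElem?_map]
  cases l[p.val]? with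
  | none => simp [St.map]
  | some s => simp

theorem pass_map (K : Caps m) (φ : H →* H') (l : List (St m H)) (x : H × Fin m) :
    K.pass (l.map (St.map φ)) (φ x.1, x.2) = (φ (K.pass l x).1, (K.pass l x).2) := by
  unfold Caps.pass
  simp only [pick_map]
  have : (fun p => decide (((pick l p).map φ).lab = x.2)) =
      fun p => decide ((pick l p).lab = x.2) := rfl
  rw [this]
  cases (List.finRange m).find? (fun p => decide ((pick l p).lab = x.2)) with
  | none => rfl
  | some p => simp [St.map]

theorem iterate_pass_map (K : Caps m) (φ : H →* H') (l : List (St m H)) (x : H × Fin m) (n : ℕ) :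
    (K.pass (l.map (St.map φ)))^[n] (φ x.1, x.2) =
      (φ ((K.pass l)^[n] x).1, ((K.pass l)^[n] x).2) := by
  induction n with
  | zero => rfl
  | succ n ih => rw [iterate_succ_apply', iterate_succ_apply', ih, pass_map]

theorem walk_unit (K : Caps m) (w : Word) (a : Fin m → H) (n : ℕ) :
    ((K.pass (run w (start a)))^[n] (1, K.base)).2 =
      ((K.pass (run w (start fun _ => (1 : Multiplicative ℤ))))^[n] (1, K.base)).2 := by
  have h1 := iterate_pass_map K (1 : H →* Multiplicative ℤ) (run w (start a)) (1, K.base) n
  rw [← run_map, start_map] at h1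
  simp only [MonoidHom.one_apply] at h1
  rw [h1]

/-- The positions during the walk along the knot do not depend on the colours. -/
theorem walk_indep (K : Caps m) (w : Word) (c : Fin m → H) (c' : Fin m → H') (n : ℕ) :
    ((K.pass (run w (start c)))^[n] (1, K.base)).2 =
      ((K.pass (run w (start c')))^[n] (1, K.base)).2 := by
  rw [walk_unit K w c, walk_unit K w c']

theorem rawLon_map (K : Caps m) (w : Word) (φ : H →* H') (c : Fin m → H) :
    K.rawLon w (fun i => φ (c i)) = φ (K.rawLon w c) := by
  unfold Caps.rawLon
  have h1 := iterate_pass_map K φ (run w (start c)) (1, K.base) (m / 2)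
  rw [← run_map, start_map] at h1
  simp only [map_one] at h1
  rw [h1]

theorem lon_map (K : Caps m) (w : Word) (φ : H →* H') (c : Fin m → H) :
    K.lon w (fun i => φ (c i)) = φ (K.lon w c) := by
  unfold Caps.lon
  rw [rawLon_map, map_mul, map_zpow]

theorem col_map (w : Word) (φ : H →* H') (c : Fin m → H) (p : Fin m) :
    (pick (run w (start fun i => φ (c i))) p).col = φ (pick (run w (start c)) p).col := by
  rw [← start_map, run_map, pick_map]
  rfl

/-- The conditions on the colours of the bottom ends for a homomorphism of the group of the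
surgery. -/
structure Good (K : Caps m) (w : Word) (p q : ℤ) (c : Fin m → H) : Prop where
  bot : ∀ i, c i * c (K.bot i) = 1
  top : ∀ i, (pick (run w (start c)) i).col * (pick (run w (start c)) (K.top i)).col = 1
  slope : c K.base ^ p * K.lon w c ^ q = 1

theorem lift_relators (K : Caps m) (w : Word) (p q : ℤ) (c : Fin m → H) :
    (∀ r ∈ K.relators w p q, FreeGroup.lift c r = 1) ↔ Good K w p q c := by
  have hc : (fun i => FreeGroup.lift c (FreeGroup.of i)) = c := by
    funext i; exact FreeGroup.lift_apply_of
  have h1 : ∀ p, (pick (run w (start c)) p).col =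
      FreeGroup.lift c (pick (run w (start FreeGroup.of)) p).col := by
    intro p
    rw [← col_map, hc]
  have h2 : K.lon w c = FreeGroup.lift c (K.lon w FreeGroup.of) := by
    rw [← lon_map, hc]
  constructor
  · intro h
    refine ⟨fun i => ?_, fun i => ?_, ?_⟩
    · have := h _ (Or.inl (Or.inl ⟨i, rfl⟩))
      simpa using this
    · have := h _ (Or.inl (Or.inr ⟨i, rfl⟩))
      rw [map_mul] at this
      rw [h1, h1]
      exact this
    · have := h _ (Or.inr rfl)
      rw [map_mul, map_zpow, map_zpow, ← h2] at this
      simpa using this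
  · rintro ⟨g1, g2, g3⟩ r ((⟨i, rfl⟩ | ⟨i, rfl⟩) | hr)
    · simpa using g1 i
    · rw [map_mul, ← h1, ← h1]
      exact g2 i
    · rw [Set.mem_singleton_iff] at hr
      rw [hr, map_mul, map_zpow, map_zpow, ← h2]
      simpa using g3

/-- Homomorphisms of a presented group. -/
noncomputable def homEquiv {α : Type*} {G : Type*} [Group G] (T : Set (FreeGroup α)) :
    (PresentedGroup T →* G) ≃ {σ : α → G // ∀ r ∈ T, FreeGroup.lift σ r = 1} where
  toFun f := ⟨fun a => f (PresentedGroup.of a), by
    intro r hr
    have h3 : FreeGroup.lift (fun a => f (PresentedGroup.of a)) =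
        f.comp (PresentedGroup.mk T) := by
      ext a
      simp [PresentedGroup.of]
    rw [h3, MonoidHom.comp_apply]
    have : PresentedGroup.mk T r = 1 := PresentedGroup.one_of_mem hr
    rw [this, map_one]⟩
  invFun σ := PresentedGroup.toGroup (f := σ.1) σ.2
  left_inv f := by
    ext a
    simp
  right_inv σ := by
    apply Subtype.ext
    funext a
    simp

theorem homCount_eq (K : Caps m) (G : Type) [Group G] (w : Word) (p q : ℤ) :
    K.homCount G w p q = Nat.card {c : Fin m → G // Good K w p q c} := by
  unfold Caps.homCount
  rw [Nat.card_congr (homEquiv _)]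
  exact Nat.card_congr (Equiv.subtypeEquivRight fun c => lift_relators K w p q c)

/-- Groups with different numbers of homomorphisms are not isomorphic. -/
theorem isEmpty_of_card {A B G : Type*} [Group A] [Group B] [Group G]
    (h : Nat.card (A →* G) ≠ Nat.card (B →* G)) : IsEmpty (A ≃* B) :=
  ⟨fun θ => h (Nat.card_congr (MulEquiv.monoidHomCongrLeftEquiv θ))⟩

end Vale.Agent.P258.Braid
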