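import Vale.Agent.P258.R2.H390.Main
import Vale.Agent.P258.R2.H390.G7c

set_option linter.all false

/-!
The words `fam n` for odd `n`: the strands at the top, in closed form.
-/

namespace Vale.Agent.P258.Braid

open Function
open Vale.Agent.P258.Seven (Cond)

section

variable {H : Type} [Group H]

/-- The strands at the top. -/
def sList (h : ℕ) (X Y Z : H) : List (St 6 H) :=
  let n := 2 * h + 1
  let q := Y * X⁻¹
  let b := q⁻¹ * X⁻¹ * q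
  let bt := X * q
  let c := q⁻¹ * Y * q
  let ct := Y⁻¹ * q
  let q1 := Z * Y⁻¹
  let d := q1⁻¹ * Y⁻¹ * q1
  let dt := Y * q1
  let e := q1⁻¹ * Z * q1
  let et := Z⁻¹ * q1
  let p := b * X
  let pn := p ^ n
  let r := d * c
  let rh := r ^ h
  let t := Z⁻¹ * e
  let tn := t ^ n
  let c1 := rh⁻¹ * c * rh
  let d1 := rh⁻¹ * d * rh
  let e1 := tn * e * tn⁻¹
  let f1 := tn * Z⁻¹ * tn⁻¹
  [⟨0, pn * X * pn⁻¹, X ^ n * pn⁻¹⟩, ⟨1, pn * b * pn⁻¹, bt * b ^ n * pn⁻¹⟩,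
    ⟨3, c1⁻¹ * d1 * c1, dt * (d ^ h)⁻¹ * rh * c1⟩, ⟨2, c1, ct * (c ^ h)⁻¹ * rh⟩,
    ⟨5, e1⁻¹ * f1 * e1, (Z⁻¹) ^ n * tn⁻¹ * e1⟩, ⟨4, e1, et * e ^ n * tn⁻¹⟩]

theorem zp_odd (h : ℕ) (g : H) : g ^ (-(2 * (h : ℤ) + 1)) = (g ^ (2 * h + 1))⁻¹ := by
  rw [zpow_neg]
  congr 1
  exact_mod_cast zpow_natCast g (2 * h + 1)

theorem zp_odd' (h : ℕ) (g : H) : g ^ (2 * (h : ℤ) + 1) = g ^ (2 * h + 1) := by
  exact_mod_cast zpow_natCast g (2 * h + 1)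

theorem run_odd (h : ℕ) (X Y Z : H) : run (fam (2 * (h : ℤ) + 1))
    [⟨0, X, 1⟩, ⟨1, X⁻¹, 1⟩, ⟨2, Y, 1⟩, ⟨3, Y⁻¹, 1⟩, ⟨4, Z, 1⟩, ⟨5, Z⁻¹, 1⟩] =
      sList h X Y Z := by
  have h2 : (hPerm : Equiv.Perm (St 6 H × St 6 H)) ^ (2 : ℤ) = hPerm ^ (2 * 1 : ℤ) := by norm_num
  have h10 : (hPerm : Equiv.Perm (St 6 H × St 6 H)) ^ (-2 * (2 * (h : ℤ) + 1)) =
      hPerm ^ (2 * (-(2 * (h : ℤ) + 1))) := by
    congr 1 <;> ring
  have h9 : (hPerm : Equiv.Perm (St 6 H × St 6 H)) ^ (1 - 2 * (2 * (h : ℤ) + 1)) =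
      hPerm ^ (2 * (-(2 * (h : ℤ) + 1)) + 1) := by
    congr 1 <;> ring
  rw [run_fam, h2, h10, h9]
  simp only [actAt, hz_even, hz_odd]
  simp only [tw, half, neg_neg, zp_odd, zp_odd', zpow_one, zpow_neg_one,
    zpow_neg, zpow_natCast, inv_inv, one_mul, sList]

theorem good_iff (h : ℕ) (p : ℤ) (k : ℕ) (hk : (k : ℤ) = 3 * (2 * h + 1) - 1 - p)
    (hexp : caps6.expo (fam (2 * (h : ℤ) + 1)) = 3 * (2 * h + 1) - 1) (c : Fin 6 → H) :
    Good caps6 (fam (2 * (h : ℤ) + 1)) p 1 c ↔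
      c 1 = (c 0)⁻¹ ∧ c 3 = (c 2)⁻¹ ∧ c 5 = (c 4)⁻¹ ∧ Cond h k (c 0) (c 2) (c 4) := by
  have key : c 1 = (c 0)⁻¹ → c 3 = (c 2)⁻¹ → c 5 = (c 4)⁻¹ →
      (run (fam (2 * (h : ℤ) + 1)) (start c) = sList h (c 0) (c 2) (c 4) ∧
      (c caps6.base ^ p * caps6.lon (fam (2 * (h : ℤ) + 1)) c ^ (1 : ℤ) = 1 ↔
        caps6.rawLon (fam (2 * (h : ℤ) + 1)) c = c 0 ^ k)) := by
    intro h1 h3 h5
    refine ⟨?_, ?_⟩
    · rw [start6, h1, h3, h5, run_odd]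
    · unfold Caps.lon
      rw [hexp]
      change c 0 ^ p * (caps6.rawLon _ c * c 0 ^ (-(3 * (2 * (h : ℤ) + 1) - 1))) ^ (1 : ℤ) = 1 ↔ _
      rw [zpow_one, ← zpow_natCast (c 0) k, hk]
      constructor
      · intro hh
        have h2 : caps6.rawLon (fam (2 * (h : ℤ) + 1)) c = (c 0 ^ p)⁻¹ * (c 0 ^ p *
            (caps6.rawLon (fam (2 * (h : ℤ) + 1)) c *
            c 0 ^ (-(3 * (2 * (h : ℤ) + 1) - 1)))) * c 0 ^ (3 * (2 * (h : ℤ) + 1) - 1) := by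
          group
        rw [h2, hh, mul_one, ← zpow_neg, ← zpow_add]
        congr 1; ring
      · intro hh
        rw [hh, ← zpow_add, ← zpow_add]
        have : p + (3 * (2 * (h : ℤ) + 1) - 1 - p + -(3 * (2 * (h : ℤ) + 1) - 1)) = 0 := by ring
        rw [this, zpow_zero]
  constructor
  · intro hg
    have h1 : c 1 = (c 0)⁻¹ := eq_inv_of_mul_eq_one_right (hg.bot 0)
    have h3 : c 3 = (c 2)⁻¹ := eq_inv_of_mul_eq_one_right (hg.bot 2)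
    have h5 : c 5 = (c 4)⁻¹ := eq_inv_of_mul_eq_one_right (hg.bot 4)
    obtain ⟨k1, k2⟩ := key h1 h3 h5
    refine ⟨h1, h3, h5, ?_⟩
    have t1 := hg.top 1
    have t3 := hg.top 3
    have t0 := hg.top 0
    rw [k1] at t1 t3 t0
    have hl : (run (fam (2 * (h : ℤ) + 1)) (start c)).map St.lab = [0, 1, 3, 2, 5, 4] := by
      rw [k1]; rfl
    have hr := raw5' _ c _ _ _ _ _ _ k1 hl
    have hs := k2.1 hg.slope
    rw [hr] at hs
    exact ⟨t1, t3, t0, hs⟩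
  · rintro ⟨h1, h3, h5, hc⟩
    obtain ⟨k1, k2⟩ := key h1 h3 h5
    obtain ⟨t1, t3, t0, hs⟩ := hc
    refine ⟨?_, ?_, ?_⟩
    · intro i
      fin_cases i
      · change c 0 * c 1 = 1
        rw [h1, mul_inv_cancel]
      · change c 1 * c 0 = 1
        rw [h1, inv_mul_cancel]
      · change c 2 * c 3 = 1
        rw [h3, mul_inv_cancel]
      · change c 3 * c 2 = 1
        rw [h3, inv_mul_cancel]
      · change c 4 * c 5 = 1
        rw [h5, mul_inv_cancel]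
      · change c 5 * c 4 = 1
        rw [h5, inv_mul_cancel]
    · intro i
      rw [k1]
      fin_cases i
      · exact t0
      · exact t1
      · exact mul_eq_one_comm.1 t1
      · exact t3
      · exact mul_eq_one_comm.1 t3
      · exact mul_eq_one_comm.1 t0
    · have hl : (run (fam (2 * (h : ℤ) + 1)) (start c)).map St.lab = [0, 1, 3, 2, 5, 4] := by
        rw [k1]; rfl
      have hr := raw5' _ c _ _ _ _ _ _ k1 hl
      refine k2.2 ?_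
      rw [hr]
      exact hs

end

end Vale.Agent.P258.Braid
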