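import Vale.Agent.P258.R2.H390.Odd

set_option linter.all false

/-!
The exponent sum of the longitude for odd `n`, and the transfer to the enumeration over the simple
group of order 168.
-/

namespace Vale.Agent.P258.Braid

open Function
open Vale.Agent.P258.Seven (Cond G7 cl7 fullC fullC_iff enumN enumAll exists_w conj_mem pC pC_code
  pow84 mulB invB beq_code beq_code')
open Vale.Agent.P258.Second (force force_eq)

theorem walk_of_lab (w : Word)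
    (h : (run w (start fun _ : Fin 6 => (1 : Multiplicative ℤ))).map St.lab = [0, 1, 3, 2, 5, 4]) :
    caps6.ups w = [0, 5, 3] ∧ caps6.IsKnot w := by
  have h0 := h
  obtain ⟨s0, s1, s2, s3, s4, s5, hr⟩ := list6
    (run w (start fun _ : Fin 6 => (1 : Multiplicative ℤ))) (by rw [run_length, start_length])
  rw [hr] at h0
  obtain ⟨l0, c0, t0⟩ := s0
  obtain ⟨l1, c1, t1⟩ := s1
  obtain ⟨l2, c2, t2⟩ := s2
  obtain ⟨l3, c3, t3⟩ := s3
  obtain ⟨l4, c4, t4⟩ := s4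
  obtain ⟨l5, c5, t5⟩ := s5
  simp only [List.map_cons, List.map_nil, List.cons.injEq, and_true] at h0
  obtain ⟨rfl, rfl, rfl, rfl, rfl, rfl⟩ := h0
  have hu : caps6.ups w = [0, 5, 3] := by
    unfold Caps.ups
    rw [hr]
    rfl
  refine ⟨hu, ?_⟩
  unfold Caps.IsKnot
  rw [hu]
  refine ⟨by decide, ?_⟩
  rw [hr]
  rfl

theorem lab_odd {H : Type} [Group H] (h : ℕ) (X Y Z : H) :
    (sList h X Y Z).map St.lab = [0, 1, 3, 2, 5, 4] := rfl

theorem start_one : (start fun _ : Fin 6 => (1 : Multiplicative ℤ)) =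
    [⟨0, 1, 1⟩, ⟨1, 1⁻¹, 1⟩, ⟨2, 1, 1⟩, ⟨3, 1⁻¹, 1⟩, ⟨4, 1, 1⟩, ⟨5, 1⁻¹, 1⟩] := by
  rw [start6]
  simp only [inv_one]

theorem knot_odd (h : ℕ) : caps6.ups (fam (2 * (h : ℤ) + 1)) = [0, 5, 3] ∧
    caps6.IsKnot (fam (2 * (h : ℤ) + 1)) := by
  apply walk_of_lab
  rw [start_one, run_odd, lab_odd]

theorem expo_odd (h : ℕ) : caps6.expo (fam (2 * (h : ℤ) + 1)) = 3 * (2 * (h : ℤ) + 1) - 1 := by
  unfold Caps.expo
  obtain ⟨c, hc⟩ : ∃ c : Fin 6 → Multiplicative ℤ,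
    c = fun i => Multiplicative.ofAdd (caps6.ori (fam (2 * (h : ℤ) + 1)) i) := ⟨_, rfl⟩
  rw [← hc]
  have ho : ∀ i, caps6.ori (fam (2 * (h : ℤ) + 1)) i =
      if i ∈ ([0, 5, 3] : List (Fin 6)) then 1 else -1 := by
    intro i
    unfold Caps.ori
    rw [(knot_odd h).1]
  have c0 : c 0 = Multiplicative.ofAdd 1 := by rw [hc]; simp only; rw [ho]; rfl
  have c1 : c 1 = (c 0)⁻¹ := by rw [c0, hc]; simp only; rw [ho]; rfl
  have c2 : c 2 = (Multiplicative.ofAdd 1)⁻¹ := by rw [hc]; simp only; rw [ho]; rfl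
  have c3 : c 3 = (c 2)⁻¹ := by rw [c2, hc]; simp only; rw [ho]; rfl
  have c4 : c 4 = (Multiplicative.ofAdd 1)⁻¹ := by rw [hc]; simp only; rw [ho]; rfl
  have c5 : c 5 = (c 4)⁻¹ := by rw [c4, hc]; simp only; rw [ho]; rfl
  have k1 : run (fam (2 * (h : ℤ) + 1)) (start c) = sList h (c 0) (c 2) (c 4) := by
    rw [start6, c1, c3, c5, run_odd]
  have hl : (run (fam (2 * (h : ℤ) + 1)) (start c)).map St.lab = [0, 1, 3, 2, 5, 4] := by
    rw [k1]; rfl
  have hr := raw5' _ c _ _ _ _ _ _ k1 hl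
  rw [hr, c0, c2, c4]
  simp only [toAdd_mul, toAdd_inv, toAdd_pow, toAdd_ofAdd, nsmul_eq_mul]
  push_cast
  ring

theorem step7 {H : Type} [Group H] (pn b rh c d r : H) (hr : r = d * c)
    (h : (pn * b * pn⁻¹) * ((rh⁻¹ * c * rh)⁻¹ * (rh⁻¹ * d * rh) * (rh⁻¹ * c * rh)) = 1) :
    c⁻¹ * r * rh = rh * (pn * b⁻¹ * pn⁻¹) := by
  have h1 : c⁻¹ * (d * c) * rh = rh * ((rh⁻¹ * c * rh)⁻¹ * (rh⁻¹ * d * rh) *
      (rh⁻¹ * c * rh)) := by group
  have h2 : rh * (pn * b⁻¹ * pn⁻¹) = rh * (pn * b * pn⁻¹)⁻¹ := by group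
  rw [hr, h1, h2, eq_inv_of_mul_eq_one_right h]

theorem enum_sound (n h k x0 : ℕ) (hh : h < 127) (hn : n = 2 * h + 1) (X Y Z : G7)
    (hX : Seven.code X = x0)
    (hY : Seven.code Y ∈ cl7 x0) (hZ : Seven.code Z ∈ cl7 x0)
    (hc : Cond h k X Y Z) (hk : k < 512) (h0 : enumN n h k x0 = true) : False := by
  subst hn
  have e7 : ∀ g : G7, pC 7 (Seven.code g) h = Seven.code (g ^ h) := fun g => pC_code 7 h g (by
    norm_num; omega)
  have e8 : ∀ g : G7, pC 8 (Seven.code g) (2 * h + 1) = Seven.code (g ^ (2 * h + 1)) := fun g =>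
    pC_code 8 (2 * h + 1) g (by norm_num; omega)
  have hf := (fullC_iff h k hh hk X Y Z).2 hc
  unfold enumN at h0
  rw [force_eq, ← hX] at h0
  rw [← hX] at hY hZ
  simp only [force_eq, List.all_eq_true] at h0
  have h1 := h0 _ hY _ hZ
  simp only [← Seven.code_inv, ← Seven.code_mul, e7, e8] at h1
  rw [hf] at h1
  have hP := hc.1
  have h2 := (beq_code' _ _).2 (step7 _ _ _ _ _ _ rfl hP)
  rw [h2] at h1
  exact absurd h1 (by decide)

end Vale.Agent.P258.Braid
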