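import Vale.Agent.P258.R2.H390.Odd2

set_option linter.all false

/-!
Separation of the slopes `2` and `-2` by the simple group of order 168.
-/

namespace Vale.Agent.P258.Braid

open Function
open Vale.Agent.P258.Seven (Cond G7 cl7 fullC fullC_iff enumN enumAll exists_w conj_mem pC pC_code
  pow84 mulB invB beq_code beq_code' dec)

section

variable {H : Type} [Group H]

theorem conjP1 (X Y q pn q1 rh c1 : H)
    (h : pn * (q⁻¹ * X⁻¹ * q) * pn⁻¹ *
      (c1⁻¹ * (rh⁻¹ * (q1⁻¹ * Y⁻¹ * q1) * rh) * c1) = 1) : ∃ g, Y = g⁻¹ * X⁻¹ * g := by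
  refine ⟨q * pn⁻¹ * (q1 * rh * c1)⁻¹, ?_⟩
  have h2 := eq_inv_of_mul_eq_one_left h
  have h3 : (q * pn⁻¹ * (q1 * rh * c1)⁻¹)⁻¹ * X⁻¹ * (q * pn⁻¹ * (q1 * rh * c1)⁻¹) =
      (q1 * rh * c1) * (pn * (q⁻¹ * X⁻¹ * q) * pn⁻¹) * (q1 * rh * c1)⁻¹ := by group
  rw [h3, h2]
  group

theorem conjP3 (Y Z q rh tn e1 : H)
    (h : rh⁻¹ * (q⁻¹ * Y * q) * rh * (e1⁻¹ * (tn * Z⁻¹ * tn⁻¹) * e1) = 1) :
    ∃ g, Z = g⁻¹ * Y * g := by
  refine ⟨q * rh * (tn⁻¹ * e1)⁻¹, ?_⟩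
  have h2 := eq_inv_of_mul_eq_one_left h
  have h3 : (q * rh * (tn⁻¹ * e1)⁻¹)⁻¹ * Y * (q * rh * (tn⁻¹ * e1)⁻¹) =
      (tn⁻¹ * e1) * (rh⁻¹ * (q⁻¹ * Y * q) * rh) * (tn⁻¹ * e1)⁻¹ := by group
  rw [h3, h2]
  group

end

theorem key7 (h k : ℕ) (p : ℤ) (hh : h < 127) (hk : k < 512)
    (hkp : (k : ℤ) = 3 * (2 * h + 1) - 1 - p) (hE : enumAll (2 * h + 1) h k = true)
    (c : Fin 6 → G7) (hg : Good caps6 (fam (2 * (h : ℤ) + 1)) p 1 c) : c 0 * c 0 = 1 := by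
  by_contra hne
  obtain ⟨W, hW⟩ := exists_w hne
  let φ : G7 →* G7 := (MulAut.conj W).toMonoidHom
  have hφ : ∀ g, φ g = W * g * W⁻¹ := fun g => by simp [φ]
  obtain ⟨v, hvd⟩ : ∃ v : Fin 6 → G7, v = fun i => φ (c i) := ⟨_, rfl⟩
  have hv : Good caps6 (fam (2 * (h : ℤ) + 1)) p 1 v := by rw [hvd]; exact hg.map φ
  have hv0 : v 0 = W * c 0 * W⁻¹ := by rw [hvd]; simp only; rw [hφ]
  rw [← hv0] at hW
  obtain ⟨h1, h3, h5, hc⟩ := (good_iff h p k hkp (expo_odd h) v).1 hv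
  obtain ⟨g, hY⟩ := conjP1 _ _ _ _ _ _ _ hc.1
  obtain ⟨g', hZ⟩ := conjP3 _ _ _ _ _ _ hc.2.1
  have mY : Seven.code (v 2) ∈ cl7 (Seven.code (v 0)) := by
    rw [hY]; exact conj_mem hW g
  have mZ : Seven.code (v 4) ∈ cl7 (Seven.code (v 0)) := by
    have : v 4 = (g * g')⁻¹ * (v 0)⁻¹ * (g * g') := by
      rw [hZ, hY]; group
    rw [this]; exact conj_mem hW _
  have hE' : enumN (2 * h + 1) h k (Seven.code (v 0)) = true := by
    unfold enumAll at hE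
    simp only [Bool.and_eq_true] at hE
    obtain ⟨a1, a2, a3, a4⟩ := hE
    simp only [List.mem_cons, List.not_mem_nil, or_false] at hW
    rcases hW with e | e | e | e
    · rw [e]; exact a1
    · rw [e]; exact a2
    · rw [e]; exact a3
    · rw [e]; exact a4
  exact enum_sound (2 * h + 1) h k _ hh rfl (v 0) (v 2) (v 4) rfl mY mZ hc hk hE'

/-- The element of a code. -/
def toG7 (x : ℕ) : G7 := if h : (dec x).det = 1 then ⟨dec x, h⟩ else 1

instance : Finite G7 := inferInstance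

theorem sep (h k k' x y z : ℕ) (p : ℤ) (hp : p = 2 ∨ p = -2) (hh : h < 127) (hk : k < 512)
    (hkp : (k : ℤ) = 3 * (2 * h + 1) - 1 - p) (hk' : k' < 512)
    (hkp' : (k' : ℤ) = 3 * (2 * h + 1) - 1 + p)
    (hE : enumAll (2 * h + 1) h k = true)
    (hx : Seven.code (toG7 x) = x) (hy : Seven.code (toG7 y) = y) (hz : Seven.code (toG7 z) = z)
    (hsq : mulB x x ≠ 273)
    (hf : fullC (2 * h + 1) h k' x y z = true) :
    caps6.homCount G7 (fam (2 * (h : ℤ) + 1)) 2 1 ≠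
      caps6.homCount G7 (fam (2 * (h : ℤ) + 1)) (-2) 1 := by
  have hlt : caps6.homCount G7 (fam (2 * (h : ℤ) + 1)) p 1 <
      caps6.homCount G7 (fam (2 * (h : ℤ) + 1)) (-p) 1 := by
    rw [homCount_eq, homCount_eq]
    have hkey := key7 h k p hh hk hkp hE
    have hsub : {c : Fin 6 → G7 | Good caps6 (fam (2 * (h : ℤ) + 1)) p 1 c} ⊂
        {c : Fin 6 → G7 | Good caps6 (fam (2 * (h : ℤ) + 1)) (-p) 1 c} := by
      refine ⟨fun c hc => ?_, fun hle => ?_⟩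
      · have hg : Good caps6 (fam (2 * (h : ℤ) + 1)) p 1 c := hc
        refine ⟨hg.bot, hg.top, ?_⟩
        have h2 : c 0 ^ (2 : ℤ) = 1 := by rw [zpow_two, hkey c hg]
        have hm : c 0 ^ (-2 : ℤ) = 1 := by rw [zpow_neg, h2, inv_one]
        have e1 : c caps6.base ^ p = 1 := by rcases hp with rfl | rfl <;> assumption
        have e2 : c caps6.base ^ (-p) = 1 := by rw [zpow_neg, e1, inv_one]
        have hs := hg.slope
        rw [e1] at hs
        rw [e2]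
        exact hs
      · have hgood : Good caps6 (fam (2 * (h : ℤ) + 1)) (-p) 1
            ![toG7 x, (toG7 x)⁻¹, toG7 y, (toG7 y)⁻¹, toG7 z, (toG7 z)⁻¹] := by
          refine (good_iff h (-p) k' (by rw [hkp']; ring) (expo_odd h) _).2 ⟨rfl, rfl, rfl, ?_⟩
          refine (fullC_iff h k' hh hk' (toG7 x) (toG7 y) (toG7 z)).1 ?_
          rw [hx, hy, hz]
          exact hf
        have h2 := hkey _ (hle hgood)
        have h3 : toG7 x * toG7 x = 1 := h2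
        have h4 := congrArg Seven.code h3
        rw [Seven.code_mul, hx, Seven.code_one] at h4
        exact hsq h4
    exact Set.ncard_lt_ncard hsub (Set.toFinite _)
  rcases hp with rfl | rfl
  · exact hlt.ne
  · exact hlt.ne'

end Vale.Agent.P258.Braid
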