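import Vale.Agent.P258.R2.H390.Chk

set_option linter.all false

/-!
Soundness of the enumeration.
-/

namespace Vale.Agent.P258.Braid

open Function
open Vale.Agent.P258.Second (force force_eq mulN invN cd cl code code_mul code_inv code_one
  code_inj tr tr_lt tr_conj sq_of_tr mem_cl comp code_comp exists_w F8)

abbrev S8 := Vale.Agent.P258.Second.G

section

variable {m : ℕ}

/-- The code of a state. -/
def cs (s : St m S8) : ℕ × ℕ := (code s.col, code s.tr)

theorem halfC_eq {α : Type} (e : Bool) (s t : St m S8) (k : ℕ × ℕ → ℕ × ℕ → α) :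
    halfC e (cs s) (cs t) k = k (cs (half e s t).1) (cs (half e s t).2) := by
  cases e
  · simp only [halfC, force_eq, half, cs, code_mul, code_inv]
  · simp only [halfC, force_eq, half, cs, code_mul, code_inv]

theorem crossC_eq {α : Type} (e : Bool) : ∀ (i : ℕ) (l : List (St m S8))
    (k : List (ℕ × ℕ) → α), crossC i e (l.map cs) k = k ((cross i e l).map cs)
  | 0, [], k => rfl
  | 0, [_], k => rfl
  | 0, s :: t :: l, k => by
    simp only [List.map_cons, crossC, cross, halfC_eq]
  | i + 1, [], k => rfl
  | i + 1, s :: l, k => by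
    simp only [List.map_cons, crossC, cross]
    rw [crossC_eq e i l]

theorem runC_eq {α : Type} (w : Word) : ∀ (l : List (St m S8)) (k : List (ℕ × ℕ) → α),
    runC w (l.map cs) k = k ((run w l).map cs) := by
  induction w with
  | nil => intro l k; rfl
  | cons x w ih =>
    intro l k
    change crossC x.1 x.2 (l.map cs) (fun l' => runC w l' k) = k ((run w (cross x.1 x.2 l)).map cs)
    rw [crossC_eq, ih]

end

/-- Traces are unchanged by crossings. -/
theorem tr_half {m : ℕ} (τ : Fin m → ℕ) (e : Bool) (s t : St m S8) (hs : tr s.col = τ s.lab)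
    (ht : tr t.col = τ t.lab) : tr (half e s t).1.col = τ (half e s t).1.lab ∧
      tr (half e s t).2.col = τ (half e s t).2.lab := by
  cases e
  · refine ⟨ht, ?_⟩
    simp only [half]
    have := tr_conj s.col t.col⁻¹
    rw [inv_inv] at this
    rw [this, hs]
  · refine ⟨?_, hs⟩
    simp only [half]
    rw [tr_conj, ht]

theorem tr_cross {m : ℕ} (τ : Fin m → ℕ) (e : Bool) : ∀ (i : ℕ) (l : List (St m S8)),
    (∀ s ∈ l, tr s.col = τ s.lab) → ∀ s ∈ cross i e l, tr s.col = τ s.lab
  | 0, [], h => h
  | 0, [_], h => h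
  | 0, s :: t :: l, h => by
    have h1 := tr_half τ e s t (h s (by simp)) (h t (by simp))
    intro u hu
    simp only [cross, List.mem_cons] at hu
    rcases hu with rfl | rfl | hu
    · exact h1.1
    · exact h1.2
    · exact h u (by simp [hu])
  | i + 1, [], h => h
  | i + 1, s :: l, h => by
    intro u hu
    simp only [cross, List.mem_cons] at hu
    rcases hu with rfl | hu
    · exact h _ (by simp)
    · exact tr_cross τ e i l (fun v hv => h v (by simp [hv])) u hu

theorem tr_run {m : ℕ} (τ : Fin m → ℕ) (w : Word) : ∀ (l : List (St m S8)),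
    (∀ s ∈ l, tr s.col = τ s.lab) → ∀ s ∈ run w l, tr s.col = τ s.lab := by
  induction w with
  | nil => intro l h; exact h
  | cons x w ih =>
    intro l h
    exact ih _ (tr_cross τ x.2 x.1 l h)

theorem tr_inv (A : S8) : tr A⁻¹ = tr A := by
  unfold tr
  rw [Matrix.SpecialLinearGroup.coe_inv, Matrix.adjugate_fin_two]
  change Nat.xor (A.1 1 1).val (A.1 0 0).val = _
  exact Nat.xor_comm _ _

/-- The explicit result of the family. -/
theorem run_fam {m : ℕ} {H : Type} [Group H] (n : ℤ) (l : List (St m H)) :
    run (fam n) l = actAt 4 (hPerm ^ (1 - 2 * n)) (actAt 2 (hPerm ^ n)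
      (actAt 0 (hPerm ^ (-2 * n)) (actAt 3 (hPerm ^ (2 : ℤ)) (actAt 1 (hPerm ^ (2 : ℤ)) l)))) := by
  unfold fam
  rw [run_append, run_append, run_append, run_append, run_pw, run_pw, run_pw, run_pw, run_pw]

end Vale.Agent.P258.Braid
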