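import Vale.Agent.P258.R2.H390.Congr

set_option linter.all false

/-!
Powers of one crossing: full twists act by conjugation, and have finite order over groups of
finite exponent.
-/

namespace Vale.Agent.P258.Braid

open Function

section

variable {m : ℕ} {H : Type} [Group H]

/-- The crossing as a permutation of the pairs of states. -/
def hPerm : Equiv.Perm (St m H × St m H) where
  toFun p := half true p.1 p.2
  invFun p := half false p.1 p.2
  left_inv p := by
    obtain ⟨s, t⟩ := p
    simp only [half]
    refine Prod.ext rfl (St.ext rfl ?_ ?_) <;> simp only <;> group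
  right_inv p := by
    obtain ⟨s, t⟩ := p
    simp only [half]
    refine Prod.ext (St.ext rfl ?_ ?_) rfl <;> simp only <;> group

theorem hPerm_apply (s t : St m H) : hPerm (s, t) = half true s t := rfl

/-- `z` full twists with total colour `Q`. -/
def tw (Q : H) (z : ℤ) (s : St m H) : St m H :=
  ⟨s.lab, Q ^ (-z) * s.col * Q ^ z, s.tr * s.col ^ (-z) * Q ^ z⟩

theorem tw_zero (Q : H) (s : St m H) : tw Q 0 s = s := by
  refine St.ext rfl ?_ ?_ <;> simp [tw]

theorem tw_succ (Q : H) (z : ℤ) (s : St m H) : tw Q 1 (tw Q z s) = tw Q (z + 1) s := by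
  refine St.ext rfl ?_ ?_
  · simp only [tw]; group
  · simp only [tw]; group

theorem hPerm_step (s t : St m H) :
    (hPerm ^ 2) (s, t) = (tw (t.col * s.col) 1 s, tw (t.col * s.col) 1 t) := by
  rw [pow_two, Equiv.Perm.mul_apply, hPerm_apply, hPerm_apply]
  simp only [half, tw]
  refine Prod.ext (St.ext rfl ?_ ?_) (St.ext rfl ?_ ?_) <;> simp only <;> group

theorem hPerm_full (z : ℤ) (s t : St m H) :
    ((hPerm ^ 2) ^ z) (s, t) = (tw (t.col * s.col) z s, tw (t.col * s.col) z t) := by
  have hst : ∀ z : ℤ, (hPerm ^ 2) (tw (t.col * s.col) z s, tw (t.col * s.col) z t) =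
      (tw (t.col * s.col) (z + 1) s, tw (t.col * s.col) (z + 1) t) := by
    intro z
    rw [hPerm_step]
    have hQ : (tw (t.col * s.col) z t).col * (tw (t.col * s.col) z s).col = t.col * s.col := by
      have h1 : (tw (t.col * s.col) z t).col * (tw (t.col * s.col) z s).col =
          (t.col * s.col) ^ (-z) * (t.col * s.col) * (t.col * s.col) ^ z := by
        simp only [tw]
        group
      have h2 : ∀ Q : H, Q ^ (-z) * Q * Q ^ z = Q := fun Q => by group
      rw [h1, h2]
    rw [hQ, tw_succ, tw_succ]
  induction z using Int.induction_on with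
  | zero => simp [tw_zero]
  | succ n ih =>
    rw [add_comm, zpow_add, zpow_one, Equiv.Perm.mul_apply, ih, hst, add_comm]
  | pred n ih =>
    apply (hPerm ^ 2).injective
    rw [hst, ← Equiv.Perm.mul_apply, ← zpow_one_add]
    have e : (1 : ℤ) + (-(n : ℤ) - 1) = -n := by ring
    rw [e, ih]
    simp

/-- A permutation of pairs of states, applied at the positions `i`, `i + 1`. -/
def actAt : ℕ → Equiv.Perm (St m H × St m H) → List (St m H) → List (St m H)
  | 0, f, s :: t :: l => (f (s, t)).1 :: (f (s, t)).2 :: l
  | i + 1, f, s :: l => s :: actAt i f l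
  | _, _, l => l

theorem actAt_one : ∀ (i : ℕ) (l : List (St m H)), actAt i 1 l = l
  | 0, [] => rfl
  | 0, [_] => rfl
  | 0, s :: t :: l => rfl
  | i + 1, [] => rfl
  | i + 1, s :: l => by simp [actAt, actAt_one i l]

theorem actAt_mul (f g : Equiv.Perm (St m H × St m H)) : ∀ (i : ℕ) (l : List (St m H)),
    actAt i (f * g) l = actAt i f (actAt i g l)
  | 0, [] => rfl
  | 0, [_] => rfl
  | 0, s :: t :: l => rfl
  | i + 1, [] => rfl
  | i + 1, s :: l => by simp [actAt, actAt_mul f g i l]

theorem cross_true : ∀ (i : ℕ) (l : List (St m H)), cross i true l = actAt i hPerm l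
  | 0, [] => rfl
  | 0, [_] => rfl
  | 0, s :: t :: l => rfl
  | i + 1, [] => rfl
  | i + 1, s :: l => by simp [actAt, cross, cross_true i l]

theorem cross_false : ∀ (i : ℕ) (l : List (St m H)), cross i false l = actAt i hPerm⁻¹ l
  | 0, [] => rfl
  | 0, [_] => rfl
  | 0, s :: t :: l => rfl
  | i + 1, [] => rfl
  | i + 1, s :: l => by simp [actAt, cross, cross_false i l]

end

section

variable {m : ℕ} {H : Type} [Group H]

theorem run_replicate_true (i n : ℕ) : ∀ l : List (St m H),
    run (List.replicate n (i, true)) l = actAt i (hPerm ^ n) l := by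
  induction n with
  | zero => intro l; rw [pow_zero, actAt_one]; rfl
  | succ n ih =>
    intro l
    change run (List.replicate n (i, true)) (cross i true l) = _
    rw [ih, cross_true, pow_succ, actAt_mul]

theorem run_replicate_false (i n : ℕ) : ∀ l : List (St m H),
    run (List.replicate n (i, false)) l = actAt i (hPerm⁻¹ ^ n) l := by
  induction n with
  | zero => intro l; rw [pow_zero, actAt_one]; rfl
  | succ n ih =>
    intro l
    change run (List.replicate n (i, false)) (cross i false l) = _
    rw [ih, cross_false, pow_succ, actAt_mul]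

theorem run_pw (i : ℕ) (z : ℤ) (l : List (St m H)) : run (pw i z) l = actAt i (hPerm ^ z) l := by
  cases z with
  | ofNat n =>
    change run (List.replicate n (i, true)) l = _
    rw [run_replicate_true]; simp
  | negSucc n =>
    change run (List.replicate (n + 1) (i, false)) l = _
    rw [run_replicate_false, zpow_negSucc, inv_pow]

theorem hPerm_order {N : ℕ} (hN : ∀ g : H, g ^ N = 1) :
    (hPerm : Equiv.Perm (St m H × St m H)) ^ (2 * N) = 1 := by
  rw [pow_mul]
  ext1 p
  obtain ⟨s, t⟩ := p
  have h := hPerm_full (N : ℤ) s t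
  rw [zpow_natCast] at h
  rw [h]
  have hz : ∀ g : H, g ^ (N : ℤ) = 1 := fun g => by rw [zpow_natCast, hN]
  have e : ∀ u : St m H, tw (t.col * s.col) N u = u := by
    intro u
    refine St.ext rfl ?_ ?_
    · simp [tw, zpow_neg, hz]
    · simp [tw, zpow_neg, hz]
  rw [e, e]
  rfl

theorem hPerm_zpow_congr {N : ℕ} (hN : ∀ g : H, g ^ N = 1) {a b : ℤ}
    (h : (2 * N : ℤ) ∣ a - b) : (hPerm : Equiv.Perm (St m H × St m H)) ^ a = hPerm ^ b := by
  obtain ⟨k, hk⟩ := h
  have e : a = b + (2 * N : ℕ) * k := by push_cast; omega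
  rw [e, zpow_add, zpow_mul, zpow_natCast, hPerm_order hN, one_zpow, mul_one]

end

end Vale.Agent.P258.Braid
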